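import Vale.Agent.P097.H877.T1f

/-! # P097 / TRIG-T1: the maximal strip of a trigonometric polynomial table and its cusp end -/

set_option linter.all false

open Complex Metric Filter Topology Set
open scoped ComplexConjugate
open Vale.Agent.P097.TA Vale.Agent.P097.H202 Vale.Agent.P097.H536

namespace Vale.Agent.P097.H877

theorem tp_hasDerivAt (N : ℕ) (A B : ℕ → ℝ) (z : ℂ) :
    HasDerivAt (tp N A B) (tp N (fun k => k * B k) (fun k => -(k * A k)) z) z := by
  have h : ∀ k ∈ Finset.range (N + 1), HasDerivAt (fun z : ℂ => (A k : ℂ) * Complex.cos (k * z) +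
      (B k : ℂ) * Complex.sin (k * z)) ((((k : ℝ) * B k : ℝ) : ℂ) * Complex.cos (k * z) +
        ((-((k : ℝ) * A k) : ℝ) : ℂ) * Complex.sin (k * z)) z := by
    intro k _
    have e : HasDerivAt (fun z : ℂ => (k : ℂ) * z) k z := by
      simpa using (hasDerivAt_id z).const_mul (k : ℂ)
    have h1 := (e.ccos.const_mul (A k : ℂ)).add (e.csin.const_mul (B k : ℂ))
    refine h1.congr_deriv ?_
    push_cast
    ring
  have h2 := HasDerivAt.fun_sum h
  exact h2

theorem tp_diff (N : ℕ) (A B : ℕ → ℝ) : Differentiable ℂ (tp N A B) :=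
  fun z => (tp_hasDerivAt N A B z).differentiableAt

theorem tp_deriv (N : ℕ) (A B : ℕ → ℝ) :
    deriv (tp N A B) = tp N (fun k => k * B k) (fun k => -(k * A k)) :=
  funext fun z => (tp_hasDerivAt N A B z).deriv

theorem tp_R (N : ℕ) (A B : ℕ → ℝ) (z : ℂ) : tp N A B z + deriv (deriv (tp N A B)) z =
    tp N (fun k => (1 - (k : ℝ) ^ 2) * A k) (fun k => (1 - (k : ℝ) ^ 2) * B k) z := by
  rw [tp_deriv, tp_deriv, tp, tp, tp, ← Finset.sum_add_distrib]
  refine Finset.sum_congr rfl fun k _ => ?_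
  push_cast
  ring

theorem tp_conj (N : ℕ) (A B : ℕ → ℝ) (z : ℂ) : tp N A B (conj z) = conj (tp N A B z) := by
  rw [tp, tp, map_sum]
  refine Finset.sum_congr rfl fun k _ => ?_
  rw [map_add, map_mul, map_mul, conj_ofReal, conj_ofReal, ← Complex.cos_conj, ← Complex.sin_conj,
    map_mul, map_natCast]

theorem tp_per (N : ℕ) (A B : ℕ → ℝ) (z : ℂ) (m : ℤ) :
    tp N A B (z + 2 * Real.pi * m) = tp N A B z := by
  rw [tp, tp]
  refine Finset.sum_congr rfl fun k _ => ?_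
  have e : (k : ℂ) * (z + 2 * Real.pi * m) = k * z + ((k * m : ℤ) : ℂ) * (2 * Real.pi) := by
    push_cast
    ring
  rw [e, Complex.cos_add_int_mul_two_pi, Complex.sin_add_int_mul_two_pi]

theorem t1 : T1 := by
  intro h κ ρ Λ L Hh HH lam Φ l φ T hTP hnd
  obtain ⟨N, a, b, hh⟩ := hTP
  have hκ := T.κ0
  have hρ := T.ρ0
  have hΛ := T.Λ0
  set H : ℂ → ℂ := tp N a b with hH
  have dH : Differentiable ℂ H := tp_diff N a b
  have hHr : ∀ x : ℝ, H x = h x := by
    intro x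
    rw [hH, tp, hh]
    push_cast
    rfl
  have hHh : ∀ z ∈ Str κ, H z = Hh z := fun z hz =>
    H500.strip_eq hκ dH.differentiableOn T.dH (fun x => by rw [hHr, T.Hr]) z hz
  -- the primitive
  obtain ⟨G₀, hG₀⟩ := prim_convex isOpen_univ convex_univ dH.differentiableOn
  set G : ℂ → ℂ := fun z => G₀ z + (HH 0 - G₀ 0) with hG
  have hG' : ∀ z, HasDerivAt G (H z) z := fun z => (hG₀ z (mem_univ z)).add_const _
  have h0κ : (0 : ℂ) ∈ Str κ := by simpa [mem_Str] using hκ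
  have hGG : ∀ z ∈ Str κ, G z = HH z := by
    intro z hz
    have h1 := const_of_deriv_zero (isOpen_Str κ) (convex_Str κ) (f := fun z => G z - HH z)
      (fun w hw => by
        have h2 := (hG' w).sub (T.dHH w hw)
        rw [hHh w hw, sub_self] at h2
        exact h2) hz h0κ
    have h2 : G 0 - HH 0 = 0 := by
      rw [hG]
      ring
    rw [h2] at h1
    exact sub_eq_zero.1 h1
  -- the radius of curvature
  set R : ℂ → ℂ := fun z => H z + deriv (deriv H) z with hR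
  set A' : ℕ → ℝ := fun k => (1 - (k : ℝ) ^ 2) * a k with hA'
  set B' : ℕ → ℝ := fun k => (1 - (k : ℝ) ^ 2) * b k with hB'
  have hRtp : ∀ z, R z = tp N A' B' z := fun z => tp_R N a b z
  have hRtp' : R = tp N A' B' := funext hRtp
  have Rp : ∀ (z : ℂ) (k : ℤ), R (z + 2 * Real.pi * k) = R z := by
    intro z k
    rw [hRtp, hRtp, tp_per]
  have Rc : ∀ z, R (conj z) = conj (R z) := by
    intro z
    rw [hRtp, hRtp, tp_conj]
  have dR : Differentiable ℂ R := by
    rw [hRtp']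
    exact tp_diff _ _ _
  have hdd : ∀ z ∈ Str κ, deriv (deriv H) z = deriv (deriv Hh) z := by
    intro z hz
    have h1 : H =ᶠ[𝓝 z] Hh := by
      filter_upwards [(isOpen_Str κ).mem_nhds hz] with w hw
      exact hHh w hw
    exact h1.deriv.deriv_eq
  have hRlam : ∀ z ∈ Str κ, R z = lam z ^ 3 := by
    intro z hz
    rw [hR, T.lam3 z hz]
    simp only []
    rw [hHh z hz, hdd z hz]
  have hRr : ∀ x : ℝ, R x = ((h x + deriv (deriv h) x : ℝ) : ℂ) := by
    intro x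
    rw [hRlam x (real_mem_Str hκ x), T.lamr, ← T.l3]
    push_cast
    rfl
  obtain ⟨c, Z, TT⟩ : ∃ (c : ℂ) (Z : Multiset ℂ), TP R c Z := by
    rcases tp_cases N A' B' with h1 | ⟨N', h1, h2, h3⟩
    · exfalso
      apply hnd
      refine ⟨A' 0, fun x => ?_⟩
      have h4 := hRr x
      rw [hRtp, h1] at h4
      exact_mod_cast h4.symm
    · obtain ⟨c, Z, hc, hZ, hf⟩ := tp_fac h1 h3
      exact ⟨c, Z, hc, hZ, fun z => by rw [hRtp, h2, hf]⟩
  -- the solution on the first strip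
  have S₀ : Sol R Λ ρ Φ := by
    refine ⟨hΛ, hρ, T.dΦ', fun z hz => ?_⟩
    have h1 := T.Φm' hz
    rw [(T.dΦ z hz).deriv, hRlam _ h1, div_pow, div_mul_cancel₀ _ (pow_ne_zero _ (T.lam0 _ h1))]
  obtain ⟨Y, Ψ, hρY, S, hΨΦ, hmax⟩ := S₀.exists_max TT
  have hY := S.hY
  have h0ρ : (0 : ℂ) ∈ Str ρ := by simpa [mem_Str] using hρ
  have h0Y : (0 : ℂ) ∈ Str Y := by simpa [mem_Str] using hY
  have hone : ∀ (Y : ℝ) (z : ℂ), z ∈ Str Y → z + 1 ∈ Str Y := by
    intro Y z hz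
    have := add_real_mem_Str hz 1
    rwa [ofReal_one] at this
  have per : ∀ z ∈ Str Y, Ψ (z + 1) = Ψ z + 2 * Real.pi := by
    have h1 := ident (isOpen_Str Y) (convex_Str Y) (f := fun z => Ψ (z + 1))
      (g := fun z => Ψ z + 2 * Real.pi)
      (S.dΦ.comp (by fun_prop) fun z hz => hone Y z hz) (S.dΦ.add_const _) h0Y (by
        filter_upwards [(isOpen_Str ρ).mem_nhds h0ρ] with z hz
        rw [hΨΦ hz, hΨΦ (hone ρ z hz), T.Φp z hz])
    exact fun z hz => h1 hz
  have cj : ∀ z ∈ Str Y, Ψ (conj z) = conj (Ψ z) :=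
    conj_strip hY S.dΦ fun x => by
      rw [hΨΦ (real_mem_Str hρ x), T.Φr, ofReal_im]
  obtain ⟨ζ, p, hζ, hp, hall⟩ := S.limit_point TT per cj Rp Rc hmax
  obtain ⟨n, ψ₀, hcusp⟩ := S.cusp dR Rp hζ hp hall
  obtain ⟨C, hC, g1, g2, g3⟩ := S.geo TT
  refine ⟨H, G, Ψ, Y, C, n, p, ψ₀, dH, hG', hHh, hGG, ?_, ?_, hcusp⟩
  · exact ⟨hΛ, hY, hC, dR, S.dΦ, S.ode, per, cj, g1, g2, g3⟩
  · intro z hz
    exact hΨΦ (Str_mono (min_le_left _ _) hz)

end Vale.Agent.P097.H877
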