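import Mathlib

/-! # P097 / TRIG-T1 (a): trigonometric polynomials are products of sines -/

set_option linter.all false

open Complex

namespace Vale.Agent.P097.H877

/-- trigonometric polynomial -/
noncomputable def tp (N : ℕ) (A B : ℕ → ℝ) (z : ℂ) : ℂ :=
  ∑ k ∈ Finset.range (N + 1), ((A k : ℂ) * Complex.cos (k * z) + (B k : ℂ) * Complex.sin (k * z))

theorem tp_cases (N : ℕ) (A B : ℕ → ℝ) : (∀ z, tp N A B z = A 0) ∨
    ∃ N', 1 ≤ N' ∧ (∀ z, tp N A B z = tp N' A B z) ∧ (A N' ≠ 0 ∨ B N' ≠ 0) := by
  induction N with
  | zero =>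
    left
    intro z
    simp [tp]
  | succ N ih =>
    by_cases h : A (N + 1) ≠ 0 ∨ B (N + 1) ≠ 0
    · right
      exact ⟨N + 1, by omega, fun z => rfl, h⟩
    · push Not at h
      have e : ∀ z, tp (N + 1) A B z = tp N A B z := by
        intro z
        rw [tp, Finset.sum_range_succ, h.1, h.2]
        simp [tp]
      rcases ih with ih | ⟨N', h1, h2, h3⟩
      · left
        intro z
        rw [e, ih]
      · right
        exact ⟨N', h1, fun z => by rw [e, h2], h3⟩

open Polynomial in
theorem tp_fac {N : ℕ} (hN : 1 ≤ N) {A B : ℕ → ℝ} (h : A N ≠ 0 ∨ B N ≠ 0) :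
    ∃ (c : ℂ) (Z : Multiset ℂ), c ≠ 0 ∧ Z ≠ 0 ∧
      ∀ z, tp N A B z = c * (Z.map fun ζ => Complex.sin ((z - ζ) / 2)).prod := by
  set c : ℕ → ℂ := fun k => ((A k : ℂ) - I * B k) / 2 with hc
  set c' : ℕ → ℂ := fun k => ((A k : ℂ) + I * B k) / 2 with hc'
  set P : ℂ[X] := ∑ k ∈ Finset.range (N + 1), (C (c k) * X ^ (N + k) + C (c' k) * X ^ (N - k))
    with hP
  have hcN : c N ≠ 0 := by
    intro h0
    rw [hc] at h0
    simp only [div_eq_zero_iff, OfNat.ofNat_ne_zero, or_false] at h0
    have h1 := congrArg Complex.re h0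
    have h2 := congrArg Complex.im h0
    simp at h1 h2
    rcases h with h | h
    · exact h h1
    · exact h h2
  have hcN' : c' N ≠ 0 := by
    intro h0
    rw [hc'] at h0
    simp only [div_eq_zero_iff, OfNat.ofNat_ne_zero, or_false] at h0
    have h1 := congrArg Complex.re h0
    have h2 := congrArg Complex.im h0
    simp at h1 h2
    rcases h with h | h
    · exact h h1
    · exact h h2
  have hcoef : ∀ n, P.coeff n = ∑ k ∈ Finset.range (N + 1),
      ((if n = N + k then c k else 0) + (if n = N - k then c' k else 0)) := by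
    intro n
    rw [hP, Polynomial.finset_sum_coeff]
    refine Finset.sum_congr rfl fun k _ => ?_
    rw [Polynomial.coeff_add, Polynomial.coeff_C_mul_X_pow, Polynomial.coeff_C_mul_X_pow]
  have hlead : P.coeff (2 * N) = c N := by
    rw [hcoef, Finset.sum_eq_single N]
    · rw [if_pos (by omega), if_neg (by omega), add_zero]
    · intro k hk hkN
      rw [Finset.mem_range] at hk
      rw [if_neg (by omega), if_neg (by omega), add_zero]
    · intro hk
      exact absurd (Finset.mem_range.2 (by omega)) hk
  have hzero : P.coeff 0 = c' N := by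
    rw [hcoef, Finset.sum_eq_single N]
    · rw [if_neg (by omega), if_pos (by omega), zero_add]
    · intro k hk hkN
      rw [Finset.mem_range] at hk
      rw [if_neg (by omega), if_neg (by omega), add_zero]
    · intro hk
      exact absurd (Finset.mem_range.2 (by omega)) hk
  have hdeg : P.natDegree = 2 * N := by
    refine Polynomial.natDegree_eq_of_le_of_coeff_ne_zero ?_ (by rw [hlead]; exact hcN)
    rw [Polynomial.natDegree_le_iff_coeff_eq_zero]
    intro n hn
    rw [hcoef]
    refine Finset.sum_eq_zero fun k hk => ?_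
    rw [Finset.mem_range] at hk
    rw [if_neg (by omega), if_neg (by omega), add_zero]
  have hP0 : P ≠ 0 := by
    intro h0
    rw [h0] at hlead
    simp at hlead
    exact hcN hlead.symm
  have hsplit : P = C P.leadingCoeff * (P.roots.map fun a => X - C a).prod :=
    (IsAlgClosed.splits P).eq_prod_roots
  have hcard : Multiset.card P.roots = 2 * N := by
    rw [← hdeg]
    exact IsAlgClosed.card_roots_eq_natDegree
  have hroot : ∀ w ∈ P.roots, w ≠ 0 := by
    intro w hw hw0
    have h1 := (Polynomial.mem_roots hP0).1 hw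
    rw [hw0, Polynomial.IsRoot.def, ← Polynomial.coeff_zero_eq_eval_zero, hzero] at h1
    exact hcN' h1
  set L : ℂ → ℂ := fun w => -I * Complex.log w with hL
  have hexpL : ∀ w ∈ P.roots, Complex.exp (I * L w) = w := by
    intro w hw
    rw [hL]
    simp only []
    rw [show I * (-I * Complex.log w) = -(I * I) * Complex.log w by ring, I_mul_I, neg_neg, one_mul]
    exact Complex.exp_log (hroot w hw)
  -- evaluation on the circle
  have heval : ∀ z : ℂ, P.eval (Complex.exp (I * z)) = Complex.exp (I * z) ^ N * tp N A B z := by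
    intro z
    rw [hP, Polynomial.eval_finset_sum, tp, Finset.mul_sum]
    refine Finset.sum_congr rfl fun k hk => ?_
    rw [Finset.mem_range] at hk
    rw [Polynomial.eval_add, Polynomial.eval_mul, Polynomial.eval_mul, Polynomial.eval_C,
      Polynomial.eval_C, Polynomial.eval_pow, Polynomial.eval_pow, Polynomial.eval_X]
    have e1 : Complex.exp (I * z) ^ (N + k) = Complex.exp (I * z) ^ N * Complex.exp (k * z * I) := by
      rw [pow_add, ← Complex.exp_nat_mul (I * z) k]
      congr 2
      ring
    have e2 : Complex.exp (I * z) ^ (N - k) = Complex.exp (I * z) ^ N * Complex.exp (-(k * z) * I) := by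
      have e3 : Complex.exp (I * z) ^ (N - k) * Complex.exp (I * z) ^ k = Complex.exp (I * z) ^ N := by
        rw [← pow_add, Nat.sub_add_cancel (by omega)]
      rw [← e3, mul_assoc, ← Complex.exp_nat_mul (I * z) k, ← Complex.exp_add]
      rw [show (k : ℂ) * (I * z) + -(k * z) * I = 0 by ring, Complex.exp_zero, mul_one]
    rw [e1, e2, Complex.cos, Complex.sin, hc, hc']
    ring
  have hsin : ∀ z ζ : ℂ, Complex.exp (I * z) - Complex.exp (I * ζ)
      = (2 * I * Complex.exp (I * ζ / 2)) * Complex.exp (I * z / 2) * Complex.sin ((z - ζ) / 2) := by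
    intro z ζ
    have e1 : Complex.exp (I * z) = Complex.exp (I * ζ / 2) * Complex.exp (I * z / 2) *
        Complex.exp ((z - ζ) / 2 * I) := by
      rw [← Complex.exp_add, ← Complex.exp_add]
      congr 1
      ring
    have e2 : Complex.exp (I * ζ) = Complex.exp (I * ζ / 2) * Complex.exp (I * z / 2) *
        Complex.exp (-((z - ζ) / 2) * I) := by
      rw [← Complex.exp_add, ← Complex.exp_add]
      congr 1
      ring
    rw [Complex.sin, e1, e2]
    have hI : I * I = -1 := I_mul_I
    linear_combination (-(Complex.exp (I * ζ / 2) * Complex.exp (I * z / 2) *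
      (Complex.exp (-((z - ζ) / 2) * I) - Complex.exp ((z - ζ) / 2 * I)))) * hI
  -- product over a multiset
  have hprod : ∀ (W : Multiset ℂ), (∀ w ∈ W, Complex.exp (I * L w) = w) → ∀ z : ℂ,
      (W.map fun a => Complex.exp (I * z) - a).prod =
        (W.map fun a => 2 * I * Complex.exp (I * L a / 2)).prod *
          Complex.exp (I * z / 2) ^ Multiset.card W *
          ((W.map L).map fun ζ => Complex.sin ((z - ζ) / 2)).prod := by
    intro W
    induction W using Multiset.induction_on with
    | empty => intro _ z; simp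
    | cons a W ih =>
      intro hW z
      have h1 := ih (fun w hw => hW w (Multiset.mem_cons_of_mem hw)) z
      have h2 := hW a (Multiset.mem_cons_self a W)
      rw [Multiset.map_cons, Multiset.prod_cons, h1, Multiset.map_cons, Multiset.prod_cons,
        Multiset.map_cons, Multiset.map_cons, Multiset.prod_cons, Multiset.card_cons, pow_succ]
      have h3 := hsin z (L a)
      rw [h2] at h3
      rw [h3]
      ring
  set K : ℂ := (P.roots.map fun a => 2 * I * Complex.exp (I * L a / 2)).prod with hK
  have hK0 : K ≠ 0 := by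
    rw [hK]
    apply Multiset.prod_ne_zero
    intro h0
    rw [Multiset.mem_map] at h0
    obtain ⟨a, -, ha⟩ := h0
    have : (2 * I * Complex.exp (I * L a / 2)) ≠ 0 :=
      mul_ne_zero (mul_ne_zero two_ne_zero I_ne_zero) (Complex.exp_ne_zero _)
    exact this ha
  refine ⟨P.leadingCoeff * K, P.roots.map L, mul_ne_zero (by simpa using hP0) hK0, ?_, fun z => ?_⟩
  · intro h0
    have h1 := congrArg Multiset.card h0
    rw [Multiset.card_map, hcard] at h1
    simp at h1
    omega
  · have h1 := heval z
    have h2 : P.eval (Complex.exp (I * z)) = P.leadingCoeff *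
        (P.roots.map fun a => Complex.exp (I * z) - a).prod := by
      conv_lhs => rw [hsplit]
      rw [Polynomial.eval_mul, Polynomial.eval_C, Polynomial.eval_multiset_prod, Multiset.map_map]
      congr 3
      funext a
      simp
    rw [h2, hprod P.roots hexpL z, hcard] at h1
    have h3 : Complex.exp (I * z / 2) ^ (2 * N) = Complex.exp (I * z) ^ N := by
      rw [pow_mul, ← Complex.exp_nat_mul (I * z / 2) 2]
      congr 2
      push_cast
      ring
    rw [h3] at h1
    have h4 : Complex.exp (I * z) ^ N ≠ 0 := pow_ne_zero _ (Complex.exp_ne_zero _)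
    apply mul_left_cancel₀ h4
    rw [← h1]
    ring

end Vale.Agent.P097.H877
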