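import Vale.Agent.P097.H877.T1a

/-! # P097 / TRIG-T1 (b): estimates for products of sines -/

set_option linter.all false

open Complex

namespace Vale.Agent.P097.H877

/-- `R` is a product of sines -/
structure TP (R : ℂ → ℂ) (c : ℂ) (Z : Multiset ℂ) : Prop where
  hc : c ≠ 0
  hZ : Z ≠ 0
  fac : ∀ z, R z = c * (Z.map fun ζ => Complex.sin ((z - ζ) / 2)).prod

/-- distance like function to the zeros, at most `1` -/
noncomputable def rr (Z : Multiset ℂ) (z : ℂ) : ℝ :=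
  Multiset.fold min 1 (Z.map fun ζ => ‖Complex.sin ((z - ζ) / 2)‖)

theorem rr_cons (a : ℂ) (Z : Multiset ℂ) (z : ℂ) :
    rr (a ::ₘ Z) z = min ‖Complex.sin ((z - a) / 2)‖ (rr Z z) := by
  rw [rr, Multiset.map_cons, Multiset.fold_cons_left, rr]

theorem rr_le_one (Z : Multiset ℂ) (z : ℂ) : rr Z z ≤ 1 := by
  induction Z using Multiset.induction_on with
  | empty => simp [rr]
  | cons a Z ih =>
    rw [rr_cons]
    exact (min_le_right _ _).trans ih

theorem rr_nonneg (Z : Multiset ℂ) (z : ℂ) : 0 ≤ rr Z z := by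
  induction Z using Multiset.induction_on with
  | empty => simp [rr]
  | cons a Z ih =>
    rw [rr_cons]
    exact le_min (norm_nonneg _) ih

theorem rr_le (Z : Multiset ℂ) (z : ℂ) : ∀ ζ ∈ Z, rr Z z ≤ ‖Complex.sin ((z - ζ) / 2)‖ := by
  induction Z using Multiset.induction_on with
  | empty => simp
  | cons a Z ih =>
    intro ζ hζ
    rw [rr_cons]
    rcases Multiset.mem_cons.1 hζ with h | h
    · rw [h]
      exact min_le_left _ _
    · exact (min_le_right _ _).trans (ih ζ h)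

theorem rr_eq (Z : Multiset ℂ) (z : ℂ) :
    rr Z z = 1 ∨ ∃ ζ ∈ Z, rr Z z = ‖Complex.sin ((z - ζ) / 2)‖ := by
  induction Z using Multiset.induction_on with
  | empty => left; simp [rr]
  | cons a Z ih =>
    rw [rr_cons]
    rcases le_total ‖Complex.sin ((z - a) / 2)‖ (rr Z z) with h | h
    · right
      exact ⟨a, Multiset.mem_cons_self _ _, min_eq_left h⟩
    · rw [min_eq_right h]
      rcases ih with h1 | ⟨ζ, h1, h2⟩
      · left; exact h1
      · right; exact ⟨ζ, Multiset.mem_cons_of_mem h1, h2⟩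

theorem cos_le (u : ℂ) : ‖Complex.cos u‖ ≤ 1 + ‖Complex.sin u‖ := by
  have h1 : Complex.cos u ^ 2 = 1 - Complex.sin u ^ 2 := by
    have := Complex.sin_sq_add_cos_sq u
    linear_combination this
  have h2 : ‖Complex.cos u‖ ^ 2 ≤ 1 + ‖Complex.sin u‖ ^ 2 := by
    rw [← norm_pow, h1]
    refine (norm_sub_le _ _).trans ?_
    rw [norm_one, norm_pow]
  nlinarith [norm_nonneg (Complex.cos u), norm_nonneg (Complex.sin u)]

theorem sin_small {w : ℂ} (hw : ‖w‖ ≤ 1) :
    ‖Complex.cos w - 1‖ ≤ 2 * ‖w‖ ∧ ‖Complex.sin w‖ ≤ 2 * ‖w‖ := by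
  have e1 : ‖Complex.exp (w * I) - 1‖ ≤ 2 * ‖w‖ := by
    have := Complex.norm_exp_sub_one_le (x := w * I) (by rw [norm_mul, norm_I, mul_one]; exact hw)
    rwa [norm_mul, norm_I, mul_one] at this
  have e2 : ‖Complex.exp (-w * I) - 1‖ ≤ 2 * ‖w‖ := by
    have := Complex.norm_exp_sub_one_le (x := -w * I)
      (by rw [norm_mul, norm_I, mul_one, norm_neg]; exact hw)
    rwa [norm_mul, norm_I, mul_one, norm_neg] at this
  constructor
  · have h : Complex.cos w - 1 = ((Complex.exp (w * I) - 1) + (Complex.exp (-w * I) - 1)) / 2 := by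
      rw [Complex.cos]
      ring
    rw [h, norm_div]
    have := norm_add_le (Complex.exp (w * I) - 1) (Complex.exp (-w * I) - 1)
    rw [show ‖(2 : ℂ)‖ = 2 by simp]
    linarith
  · have h : Complex.sin w = ((Complex.exp (-w * I) - 1) - (Complex.exp (w * I) - 1)) * I / 2 := by
      rw [Complex.sin]
      ring
    rw [h, norm_div, norm_mul, norm_I, mul_one]
    have := norm_sub_le (Complex.exp (-w * I) - 1) (Complex.exp (w * I) - 1)
    rw [show ‖(2 : ℂ)‖ = 2 by simp]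
    linarith

theorem sin_pert {u w : ℂ} {r : ℝ} (hr : 0 < r) (hr1 : r ≤ 1) (hru : r ≤ ‖Complex.sin u‖)
    (hw : ‖w‖ ≤ 1) :
    ‖Complex.sin (u + w) - Complex.sin u‖ ≤ ‖Complex.sin u‖ * (6 * ‖w‖ / r) := by
  obtain ⟨h1, h2⟩ := sin_small hw
  have h3 := cos_le u
  have e : Complex.sin (u + w) - Complex.sin u
      = Complex.sin u * (Complex.cos w - 1) + Complex.cos u * Complex.sin w := by
    rw [Complex.sin_add]
    ring
  set s := ‖Complex.sin u‖ with hs
  have hs0 : 0 < s := lt_of_lt_of_le hr hru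
  have h4 : ‖Complex.sin (u + w) - Complex.sin u‖ ≤ s * (2 * ‖w‖) + (1 + s) * (2 * ‖w‖) := by
    rw [e]
    refine (norm_add_le _ _).trans ?_
    rw [norm_mul, norm_mul]
    gcongr
  refine h4.trans ?_
  have h5 : s * (6 * ‖w‖ / r) = 6 * ‖w‖ * (s / r) := by ring
  have h6 : s ≤ s / r := by
    rw [le_div_iff₀ hr]
    nlinarith
  have h7 : 1 ≤ s / r := by
    rw [le_div_iff₀ hr]
    linarith
  rw [h5]
  nlinarith [norm_nonneg w]

theorem prod_pert (Z : Multiset ℂ) (a b : ℂ → ℂ) {ε : ℝ} (hε : 0 ≤ ε)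
    (h : ∀ ζ ∈ Z, ‖a ζ - b ζ‖ ≤ ‖b ζ‖ * ε) :
    ‖(Z.map a).prod - (Z.map b).prod‖ ≤ ‖(Z.map b).prod‖ * ((1 + ε) ^ Multiset.card Z - 1) := by
  induction Z using Multiset.induction_on with
  | empty => simp
  | cons z Z ih =>
    have h1 := ih fun ζ hζ => h ζ (Multiset.mem_cons_of_mem hζ)
    have h2 := h z (Multiset.mem_cons_self _ _)
    simp only [Multiset.map_cons, Multiset.prod_cons, Multiset.card_cons]
    set A := (Z.map a).prod
    set B := (Z.map b).prod
    have h3 : ‖a z‖ ≤ ‖b z‖ * (1 + ε) := by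
      have := norm_le_norm_add_norm_sub' (a z) (b z)
      linarith
    have e : a z * A - b z * B = a z * (A - B) + (a z - b z) * B := by ring
    rw [e]
    refine (norm_add_le _ _).trans ?_
    rw [norm_mul, norm_mul, norm_mul, pow_succ]
    have h4 : 0 ≤ (1 + ε) ^ Multiset.card Z - 1 := by
      have := one_le_pow₀ (show 1 ≤ 1 + ε by linarith) (n := Multiset.card Z)
      linarith
    have h5 : ‖a z‖ * ‖A - B‖ ≤ (‖b z‖ * (1 + ε)) * (‖B‖ * ((1 + ε) ^ Multiset.card Z - 1)) := by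
      gcongr
    have h6 : ‖a z - b z‖ * ‖B‖ ≤ ‖b z‖ * ε * ‖B‖ := by gcongr
    nlinarith [norm_nonneg (b z), norm_nonneg B]

theorem sin_near_zero (u : ℂ) : ∃ k : ℤ, ‖u - 2 * Real.pi * k‖ ≤ 6 * ‖Complex.sin (u / 2)‖ := by
  set v : ℂ := u / 2 with hv
  set x := v.re with hx
  set y := v.im with hy
  set s := ‖Complex.sin v‖ with hs
  have hpi := Real.pi_pos
  have hsq : s ^ 2 = Real.sin x ^ 2 + Real.sinh y ^ 2 := by
    have e : Complex.sin v = ((Real.sin x * Real.cosh y : ℝ) : ℂ) +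
        ((Real.cos x * Real.sinh y : ℝ) : ℂ) * I := by
      rw [Complex.sin_eq]
      push_cast
      rfl
    rw [hs, e, Complex.sq_norm, Complex.normSq_add_mul_I]
    have h1 := Real.sin_sq_add_cos_sq x
    have h2 := Real.cosh_sq y
    nlinarith
  have hs0 : 0 ≤ s := norm_nonneg _
  have hsin : |Real.sin x| ≤ s := by
    refine abs_le_of_sq_le_sq ?_ hs0
    rw [hsq]
    nlinarith [sq_nonneg (Real.sinh y)]
  have hsinh : |Real.sinh y| ≤ s := by
    refine abs_le_of_sq_le_sq ?_ hs0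
    rw [hsq]
    nlinarith [sq_nonneg (Real.sin x)]
  have hy1 : |y| ≤ s := by
    refine le_trans ?_ hsinh
    rw [Real.abs_sinh]
    exact Real.self_le_sinh_iff.2 (abs_nonneg y)
  set k : ℤ := round (x / Real.pi) with hk
  have hk1 : |x / Real.pi - k| ≤ 1 / 2 := abs_sub_round _
  set x' : ℝ := x - k * Real.pi with hx'
  have hx'1 : |x'| ≤ Real.pi / 2 := by
    have : x' = (x / Real.pi - k) * Real.pi := by
      rw [hx']
      field_simp
    rw [this, abs_mul, abs_of_pos hpi]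
    nlinarith
  have hx's : |Real.sin x'| = |Real.sin x| := by
    rw [hx', Real.sin_sub_int_mul_pi, abs_mul, abs_zpow]
    simp
  have hx'2 : |x'| ≤ 2 * s := by
    have h1 := Real.mul_abs_le_abs_sin hx'1
    rw [hx's] at h1
    have h2 : 2 / Real.pi * |x'| ≤ s := h1.trans hsin
    have h3 : |x'| ≤ s * (Real.pi / 2) := by
      have : |x'| = (2 / Real.pi * |x'|) * (Real.pi / 2) := by field_simp
      rw [this]
      gcongr
    have h4 : Real.pi ≤ 4 := Real.pi_le_four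
    nlinarith
  refine ⟨k, ?_⟩
  have e : u - 2 * Real.pi * k = 2 * ((x' : ℂ) + (y : ℂ) * I) := by
    have h1 : v = (x : ℂ) + (y : ℂ) * I := (Complex.re_add_im v).symm
    have h2 : u = 2 * v := by rw [hv]; ring
    rw [h2, h1, hx']
    push_cast
    ring
  rw [e, norm_mul, show ‖(2 : ℂ)‖ = 2 by simp]
  have h5 : ‖(x' : ℂ) + (y : ℂ) * I‖ ≤ |x'| + |y| := by
    refine (norm_add_le _ _).trans ?_
    rw [norm_mul, norm_I, mul_one, norm_real, norm_real, Real.norm_eq_abs, Real.norm_eq_abs]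
  linarith

namespace TP

variable {R : ℂ → ℂ} {c : ℂ} {Z : Multiset ℂ}

theorem card_pos (T : TP R c Z) : 1 ≤ Multiset.card Z := by
  have := Multiset.card_pos.2 T.hZ
  omega

theorem lower (T : TP R c Z) {t : ℝ} (ht : 0 ≤ t) {z : ℂ} (h : t ≤ rr Z z) :
    ‖c‖ * t ^ Multiset.card Z ≤ ‖R z‖ := by
  rw [T.fac, norm_mul]
  gcongr
  have h1 : ∀ W : Multiset ℂ, (∀ ζ ∈ W, t ≤ ‖Complex.sin ((z - ζ) / 2)‖) →
      t ^ Multiset.card W ≤ ‖(W.map fun ζ => Complex.sin ((z - ζ) / 2)).prod‖ := by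
    intro W
    induction W using Multiset.induction_on with
    | empty => simp
    | cons a W ih =>
      intro hW
      rw [Multiset.map_cons, Multiset.prod_cons, Multiset.card_cons, norm_mul, pow_succ']
      have h2 := ih fun ζ hζ => hW ζ (Multiset.mem_cons_of_mem hζ)
      have h3 := hW a (Multiset.mem_cons_self _ _)
      gcongr
  exact h1 Z fun ζ hζ => h.trans (rr_le Z z ζ hζ)

theorem rr_pos (T : TP R c Z) {z : ℂ} (h : R z ≠ 0) : 0 < rr Z z := by
  refine lt_of_le_of_ne (rr_nonneg Z z) fun h0 => h ?_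
  rcases rr_eq Z z with h1 | ⟨ζ, h1, h2⟩
  · rw [h1] at h0; exact absurd h0 (by norm_num)
  · rw [T.fac]
    rw [← h0] at h2
    have h3 : Complex.sin ((z - ζ) / 2) = 0 := norm_eq_zero.1 h2.symm
    have h4 : (Z.map fun ζ => Complex.sin ((z - ζ) / 2)).prod = 0 := by
      rw [Multiset.prod_eq_zero_iff, Multiset.mem_map]
      exact ⟨ζ, h1, h3⟩
    rw [h4, mul_zero]

/-- perturbation -/
theorem pert (T : TP R c Z) {z δ : ℂ} {ε : ℝ} (hε : 0 ≤ ε) (hr : 0 < rr Z z)
    (hδ1 : ‖δ‖ ≤ 2) (hδ : 3 * ‖δ‖ ≤ ε * rr Z z) :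
    ‖R (z + δ) - R z‖ ≤ ‖R z‖ * ((1 + ε) ^ Multiset.card Z - 1) := by
  rw [T.fac, T.fac, ← mul_sub, norm_mul, norm_mul, mul_assoc]
  gcongr
  refine prod_pert Z (fun ζ => Complex.sin ((z + δ - ζ) / 2)) (fun ζ => Complex.sin ((z - ζ) / 2))
    hε fun ζ hζ => ?_
  have hn : ‖δ / 2‖ = ‖δ‖ / 2 := by simp
  have h1 := sin_pert (u := (z - ζ) / 2) (w := δ / 2) hr (rr_le_one Z z) (rr_le Z z ζ hζ)
    (by rw [hn]; linarith)
  rw [show (z + δ - ζ) / 2 = (z - ζ) / 2 + δ / 2 by ring]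
  refine h1.trans ?_
  gcongr
  rw [hn, div_le_iff₀ hr]
  linarith

/-- Lemma Q -/
theorem ratio (T : TP R c Z) : ∃ c0 : ℝ, 0 < c0 ∧ c0 ≤ 1 ∧ ∀ z δ : ℂ, ‖δ‖ ≤ c0 * rr Z z →
    ‖R (z + δ) - R z‖ ≤ ‖R z‖ / 2 := by
  set M : ℝ := (Multiset.card Z : ℝ) with hM
  have hM1 : 1 ≤ M := by rw [hM]; exact_mod_cast T.card_pos
  have hlog : 0 < Real.log (3 / 2) := Real.log_pos (by norm_num)
  have hlog1 : Real.log (3 / 2) ≤ 1 / 2 := by
    have := Real.log_le_sub_one_of_pos (show (0 : ℝ) < 3 / 2 by norm_num)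
    linarith
  refine ⟨Real.log (3 / 2) / (3 * M), by positivity, ?_, fun z δ h => ?_⟩
  · rw [div_le_one (by positivity)]
    linarith
  rcases (rr_nonneg Z z).eq_or_lt with h0 | h0
  · rw [← h0, mul_zero] at h
    have : δ = 0 := norm_le_zero_iff.1 h
    rw [this, add_zero, sub_self, norm_zero]
    positivity
  · have h1 := T.pert (z := z) (δ := δ) (ε := Real.log (3 / 2) / M) (by positivity) h0 ?_ ?_
    · refine h1.trans ?_
      have h2 : (1 + Real.log (3 / 2) / M) ^ Multiset.card Z ≤ 3 / 2 := by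
        have h3 : 1 + Real.log (3 / 2) / M ≤ Real.exp (Real.log (3 / 2) / M) := by
          have := Real.add_one_le_exp (Real.log (3 / 2) / M)
          linarith
        calc (1 + Real.log (3 / 2) / M) ^ Multiset.card Z
            ≤ Real.exp (Real.log (3 / 2) / M) ^ Multiset.card Z := by
              apply pow_le_pow_left₀ (by positivity) h3
          _ = Real.exp (Real.log (3 / 2)) := by
              rw [← Real.exp_nat_mul]
              congr 1
              rw [← hM]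
              field_simp
          _ = 3 / 2 := Real.exp_log (by norm_num)
      nlinarith [norm_nonneg (R z)]
    · refine h.trans ?_
      have h2 : Real.log (3 / 2) / (3 * M) ≤ 1 := by
        rw [div_le_one (by positivity)]
        linarith
      nlinarith [rr_le_one Z z]
    · have h2 : 3 * (Real.log (3 / 2) / (3 * M) * rr Z z) = Real.log (3 / 2) / M * rr Z z := by
        field_simp
      linarith

/-- zeros -/
theorem zero (T : TP R c Z) {ζ : ℂ} (hζ : ζ ∈ Z) (k : ℤ) : R (ζ + 2 * Real.pi * k) = 0 := by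
  rw [T.fac]
  have h4 : (Z.map fun ξ => Complex.sin ((ζ + 2 * Real.pi * k - ξ) / 2)).prod = 0 := by
    rw [Multiset.prod_eq_zero_iff, Multiset.mem_map]
    refine ⟨ζ, hζ, ?_⟩
    rw [show (ζ + 2 * Real.pi * k - ζ) / 2 = (k : ℂ) * Real.pi by ring]
    exact Complex.sin_int_mul_pi k
  rw [h4, mul_zero]

/-- Lemma N -/
theorem near (T : TP R c Z) {z : ℂ} (h : rr Z z < 1) :
    ∃ ζ ∈ Z, ∃ k : ℤ, ‖z - (ζ + 2 * Real.pi * k)‖ ≤ 6 * rr Z z := by
  rcases rr_eq Z z with h1 | ⟨ζ, h1, h2⟩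
  · rw [h1] at h; exact absurd h (by norm_num)
  · obtain ⟨k, hk⟩ := sin_near_zero (z - ζ)
    refine ⟨ζ, h1, k, ?_⟩
    rw [h2, ← sub_sub]
    exact hk

theorem near_bd (T : TP R c Z) {z δ : ℂ} (h0 : 0 < rr Z z) (h : rr Z z ≤ 1 / 6)
    (hδ : ‖δ‖ ≤ 6 * rr Z z) : ‖R (z + δ)‖ ≤ 19 ^ Multiset.card Z * ‖R z‖ := by
  have h1 := T.pert (z := z) (δ := δ) (ε := 18) (by norm_num) h0 (by linarith) (by linarith)
  have h2 := norm_le_norm_add_norm_sub' (R (z + δ)) (R z)
  have h3 : (1 + 18 : ℝ) = 19 := by norm_num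
  rw [h3] at h1
  linarith

end TP

end Vale.Agent.P097.H877
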