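import Vale.Agent.P097.H877.T1b
import Vale.Agent.P097.H202.Strip

/-! # P097 / TRIG-T1 (c): lifting of segments and the distortion estimates -/

set_option linter.all false

open Complex Metric Filter Topology Set
open Vale.Agent.P097.H202

namespace Vale.Agent.P097.H877

theorem inv_bd {R : ℂ} {a : ℂ} {Λ M : ℝ} (hΛ : 0 < Λ) (hM : 0 ≤ M) (h : a ^ 3 * R = (Λ : ℂ) ^ 3)
    (hR : ‖R‖ ≤ M ^ 3) : a ≠ 0 ∧ Λ ≤ M * ‖a‖ := by
  have h1 : ‖a‖ ^ 3 * ‖R‖ = Λ ^ 3 := by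
    have := congrArg norm h
    rwa [norm_mul, norm_pow, norm_pow, norm_real, Real.norm_eq_abs, abs_of_pos hΛ] at this
  constructor
  · rintro rfl
    have : (Λ : ℝ) ^ 3 = 0 := by rw [← h1]; simp
    exact absurd this (by positivity)
  · have h2 : Λ ^ 3 ≤ (M * ‖a‖) ^ 3 := by
      rw [← h1, mul_pow]
      nlinarith [pow_nonneg (norm_nonneg a) 3]
    exact (pow_le_pow_iff_left₀ hΛ.le (by positivity) (by norm_num)).1 h2

/-- Lemma P: lifting of a segment which ends at a zero of `R` -/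
theorem lift_bound {R Ψ : ℂ → ℂ} {Λ M d : ℝ} {z ψ₀ : ℂ} (hΛ : 0 < Λ) (hd : 0 < d) (hM : 0 ≤ M)
    (hΨ : DifferentiableOn ℂ Ψ (ball z d))
    (hode : ∀ x ∈ ball z d, deriv Ψ x ^ 3 * R (Ψ x) = (Λ : ℂ) ^ 3)
    (h0 : R ψ₀ = 0)
    (hseg : ∀ s ∈ Icc (0 : ℝ) 1, ‖R (Ψ z + s * (ψ₀ - Ψ z))‖ ≤ M ^ 3) :
    d * Λ ≤ ‖ψ₀ - Ψ z‖ * M := by
  by_contra hcon
  push Not at hcon
  have hzero : ∀ x ∈ ball z d, Ψ x ≠ ψ₀ := by
    intro x hx h1
    have h2 := hode x hx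
    rw [h1, h0, mul_zero] at h2
    have h3 : (Λ : ℂ) ^ 3 ≠ 0 := pow_ne_zero _ (by exact_mod_cast hΛ.ne')
    exact h3 h2.symm
  have hzd : z ∈ ball z d := mem_ball_self hd
  set v : ℂ := ψ₀ - Ψ z with hv
  have hv0 : v ≠ 0 := sub_ne_zero.2 (hzero z hzd).symm
  have hvn : 0 < ‖v‖ := norm_pos_iff.2 hv0
  have hK1 : ‖v‖ * M / Λ < d := by
    rw [div_lt_iff₀ hΛ]
    exact hcon
  obtain ⟨K, hK2, hK3⟩ := exists_between hK1
  have hK0 : 0 < K := lt_of_le_of_lt (by positivity) hK2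
  set T : Set ℝ := {s | ∃ x, ‖x - z‖ ≤ s * K ∧ Ψ x = Ψ z + s * v} with hT
  -- closedness
  have hclosed : IsClosed (T ∩ Icc (0 : ℝ) 1) := by
    set B : Set (ℝ × ℂ) := Icc (0 : ℝ) 1 ×ˢ closedBall z K with hB
    have hBc : IsCompact B := isCompact_Icc.prod (isCompact_closedBall _ _)
    have hf : ContinuousOn (fun p : ℝ × ℂ => Ψ p.2 - Ψ z - (p.1 : ℂ) * v) B := by
      have h1 : ContinuousOn (fun p : ℝ × ℂ => Ψ p.2) B := by
        refine hΨ.continuousOn.comp continuousOn_snd ?_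
        intro p hp
        exact closedBall_subset_ball hK3 hp.2
      exact (h1.sub continuousOn_const).sub (by fun_prop)
    have h1 : IsClosed (B ∩ (fun p : ℝ × ℂ => Ψ p.2 - Ψ z - (p.1 : ℂ) * v) ⁻¹' {0}) :=
      hf.preimage_isClosed_of_isClosed hBc.isClosed isClosed_singleton
    have h2 : IsClosed {p : ℝ × ℂ | ‖p.2 - z‖ ≤ p.1 * K} := isClosed_le (by fun_prop) (by fun_prop)
    have h3 : IsCompact ((B ∩ (fun p : ℝ × ℂ => Ψ p.2 - Ψ z - (p.1 : ℂ) * v) ⁻¹' {0}) ∩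
        {p : ℝ × ℂ | ‖p.2 - z‖ ≤ p.1 * K}) := by
      refine IsCompact.inter_right ?_ h2
      exact hBc.of_isClosed_subset h1 inter_subset_left
    have h4 : T ∩ Icc (0 : ℝ) 1 = Prod.fst '' ((B ∩ (fun p : ℝ × ℂ =>
        Ψ p.2 - Ψ z - (p.1 : ℂ) * v) ⁻¹' {0}) ∩ {p : ℝ × ℂ | ‖p.2 - z‖ ≤ p.1 * K}) := by
      ext s
      constructor
      · rintro ⟨⟨x, hx1, hx2⟩, hs⟩
        refine ⟨(s, x), ⟨⟨⟨hs, ?_⟩, ?_⟩, hx1⟩, rfl⟩
        · rw [mem_closedBall, dist_eq_norm]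
          show ‖x - z‖ ≤ K
          nlinarith [hs.2]
        · rw [mem_preimage, mem_singleton_iff]
          simp only [hx2]
          ring
      · rintro ⟨⟨s', x⟩, ⟨⟨⟨hs, hx⟩, hx2⟩, hx1⟩, rfl⟩
        refine ⟨⟨x, hx1, ?_⟩, hs⟩
        rw [mem_preimage, mem_singleton_iff] at hx2
        simp only [] at hx2 ⊢
        linear_combination hx2
    rw [h4]
    exact (h3.image continuous_fst).isClosed
  have hT0 : (0 : ℝ) ∈ T := ⟨z, by simp, by simp⟩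
  have hstep : ∀ s ∈ T ∩ Ico (0 : ℝ) 1, ∀ y ∈ Ioi s, (T ∩ Ioc s y).Nonempty := by
    rintro s ⟨⟨x, hx1, hx2⟩, hs⟩ y hy
    have hxd : x ∈ ball z d := by
      rw [mem_ball, dist_eq_norm]
      nlinarith [hs.2]
    have han : AnalyticAt ℂ Ψ x := hΨ.analyticAt (isOpen_ball.mem_nhds hxd)
    have hode' := hode x hxd
    have hRM : ‖R (Ψ x)‖ ≤ M ^ 3 := by
      rw [hx2]
      exact hseg s ⟨hs.1, hs.2.le⟩
    obtain ⟨hne, hle⟩ := inv_bd hΛ hM hode' hRM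
    have hsd : HasStrictDerivAt Ψ (deriv Ψ x) x := han.hasStrictDerivAt
    set g := hsd.localInverse Ψ (deriv Ψ x) x hne with hg
    have hg1 : HasStrictDerivAt g (deriv Ψ x)⁻¹ (Ψ x) := hsd.to_localInverse hne
    have hg2 : ∀ᶠ w in 𝓝 (Ψ x), Ψ (g w) = w :=
      (hsd.hasStrictFDerivAt_equiv hne).eventually_right_inverse
    have hgx : g (Ψ x) = x := (hsd.hasStrictFDerivAt_equiv hne).localInverse_apply_image
    set ε : ℝ := (K - ‖v‖ * M / Λ) / ‖v‖ with hε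
    have hε0 : 0 < ε := div_pos (by linarith) hvn
    have hg3 : ∀ᶠ w in 𝓝 (Ψ x), ‖g w - g (Ψ x) - (w - Ψ x) * (deriv Ψ x)⁻¹‖ ≤ ε * ‖w - Ψ x‖ := by
      have h1 := hg1.hasDerivAt.isLittleO
      have h2 := h1.def hε0
      simpa [smul_eq_mul] using h2
    have hcur : Tendsto (fun t : ℝ => Ψ x + (t : ℂ) * v) (𝓝[>] 0) (𝓝 (Ψ x)) := by
      have h1 : Continuous (fun t : ℝ => Ψ x + (t : ℂ) * v) := by fun_prop
      have h2 := h1.tendsto 0
      simp only [ofReal_zero, zero_mul, add_zero] at h2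
      exact h2.mono_left nhdsWithin_le_nhds
    have h5 := (hcur.eventually hg2).and ((hcur.eventually hg3).and
      (Ioc_mem_nhdsGT (show (0 : ℝ) < min (y - s) (1 - s) from
        lt_min (by linarith [mem_Ioi.1 hy]) (by linarith [hs.2]))))
    obtain ⟨t, ht1, ht2, ht3⟩ := h5.exists
    have ht4 := ht3.2
    rw [le_min_iff] at ht4
    refine ⟨s + t, ⟨g (Ψ x + (t : ℂ) * v), ?_, ?_⟩, ⟨by linarith [ht3.1], by linarith⟩⟩
    · have e1 : Ψ x + (t : ℂ) * v - Ψ x = (t : ℂ) * v := by ring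
      rw [e1, hgx] at ht2
      have htn : ‖(t : ℂ) * v‖ = t * ‖v‖ := by
        rw [norm_mul, norm_real, Real.norm_eq_abs, abs_of_pos ht3.1]
      have h6 : ‖g (Ψ x + (t : ℂ) * v) - x‖ ≤ ε * (t * ‖v‖) + t * ‖v‖ * (M / Λ) := by
        have h7 := norm_add_le (g (Ψ x + (t : ℂ) * v) - x - (t : ℂ) * v * (deriv Ψ x)⁻¹)
          ((t : ℂ) * v * (deriv Ψ x)⁻¹)
        rw [sub_add_cancel] at h7
        refine h7.trans ?_
        rw [htn] at ht2
        refine add_le_add ht2 ?_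
        rw [norm_mul, htn, norm_inv]
        have h8 : ‖deriv Ψ x‖⁻¹ ≤ M / Λ := by
          have hnp : 0 < ‖deriv Ψ x‖ := norm_pos_iff.2 hne
          rw [inv_le_comm₀ hnp (by
            have : 0 < M := by
              by_contra hM0
              have : M = 0 := le_antisymm (not_lt.1 hM0) hM
              rw [this] at hle
              linarith
            positivity), inv_div, div_le_iff₀' (by
            by_contra hM0
            have : M = 0 := le_antisymm (not_lt.1 hM0) hM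
            rw [this] at hle
            linarith)]
          exact hle
        have ht0 := ht3.1
        gcongr
      have h9 : ε * (t * ‖v‖) + t * ‖v‖ * (M / Λ) = t * K := by
        rw [hε]
        field_simp
        ring
      have h10 := norm_sub_le_norm_sub_add_norm_sub (g (Ψ x + (t : ℂ) * v)) x z
      rw [h9] at h6
      nlinarith
    · rw [ht1, hx2]
      push_cast
      ring
  have hall := hclosed.Icc_subset_of_forall_exists_gt hT0 hstep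
  obtain ⟨x, hx1, hx2⟩ := hall (right_mem_Icc.2 zero_le_one)
  refine hzero x ?_ ?_
  · rw [mem_ball, dist_eq_norm]
    linarith
  · rw [hx2, hv]
    push_cast
    ring

/-- solution on a strip -/
structure Sol (R : ℂ → ℂ) (Λ Y : ℝ) (Φ : ℂ → ℂ) : Prop where
  hΛ : 0 < Λ
  hY : 0 < Y
  dΦ : DifferentiableOn ℂ Φ (Str Y)
  ode : ∀ z ∈ Str Y, deriv Φ z ^ 3 * R (Φ z) = (Λ : ℂ) ^ 3

theorem ball_sub {Y : ℝ} {z : ℂ} : ball z (Y - |z.im|) ⊆ Str Y := by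
  intro w hw
  rw [mem_ball, dist_eq_norm] at hw
  have h1 : |w.im - z.im| ≤ ‖w - z‖ := by
    have := abs_im_le_norm (w - z)
    rwa [sub_im] at this
  have h2 := abs_sub_abs_le_abs_sub w.im z.im
  rw [mem_Str]
  linarith

namespace Sol

variable {R Φ : ℂ → ℂ} {c : ℂ} {Z : Multiset ℂ} {Λ Y : ℝ}

theorem R_ne (S : Sol R Λ Y Φ) {z : ℂ} (hz : z ∈ Str Y) : R (Φ z) ≠ 0 := by
  intro h0
  have h2 := S.ode z hz
  rw [h0, mul_zero] at h2
  have h3 : (Λ : ℂ) ^ 3 ≠ 0 := pow_ne_zero _ (by exact_mod_cast S.hΛ.ne')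
  exact h3 h2.symm

theorem d_ne (S : Sol R Λ Y Φ) {z : ℂ} (hz : z ∈ Str Y) : deriv Φ z ≠ 0 := by
  intro h0
  have h2 := S.ode z hz
  rw [h0] at h2
  have h3 : (Λ : ℂ) ^ 3 ≠ 0 := pow_ne_zero _ (by exact_mod_cast S.hΛ.ne')
  exact h3 (by rw [← h2]; ring)

theorem R_norm (S : Sol R Λ Y Φ) {z : ℂ} (hz : z ∈ Str Y) :
    ‖R (Φ z)‖ = (Λ / ‖deriv Φ z‖) ^ 3 := by
  have h1 := congrArg norm (S.ode z hz)
  rw [norm_mul, norm_pow, norm_pow, norm_real, Real.norm_eq_abs, abs_of_pos S.hΛ] at h1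
  have h2 : 0 < ‖deriv Φ z‖ := norm_pos_iff.2 (S.d_ne hz)
  rw [div_pow, eq_div_iff (by positivity), mul_comm]
  exact h1

theorem rr_pos (S : Sol R Λ Y Φ) (T : TP R c Z) {z : ℂ} (hz : z ∈ Str Y) : 0 < rr Z (Φ z) :=
  T.rr_pos (S.R_ne hz)

/-- main distance estimate -/
theorem key (S : Sol R Λ Y Φ) (T : TP R c Z) : ∃ C : ℝ, 0 < C ∧
    ∀ z ∈ Str Y, ‖deriv Φ z‖ * (Y - |z.im|) ≤ C * rr Z (Φ z) := by
  have hΛ := S.hΛ
  have hY := S.hY
  set m := Multiset.card Z with hm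
  set κ : ℝ := min 1 (‖c‖ * (1 / 6) ^ m) with hκ
  have hc : 0 < ‖c‖ := norm_pos_iff.2 T.hc
  have hκ0 : 0 < κ := lt_min one_pos (by positivity)
  refine ⟨6 * 19 ^ m + 6 * (Λ / κ * Y), by positivity, fun z hz => ?_⟩
  have hd : 0 < Y - |z.im| := sub_pos.2 hz
  have hr := S.rr_pos T hz
  have ha : 0 < ‖deriv Φ z‖ := norm_pos_iff.2 (S.d_ne hz)
  rcases le_or_gt (rr Z (Φ z)) (1 / 6) with h | h
  · obtain ⟨ζ, hζ, k, hk⟩ := T.near (z := Φ z) (by linarith)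
    have h1 := lift_bound (R := R) (Ψ := Φ) (z := z) (ψ₀ := ζ + 2 * Real.pi * k) (d := Y - |z.im|)
      (M := 19 ^ m * (Λ / ‖deriv Φ z‖)) hΛ hd (by positivity) (S.dΦ.mono ball_sub)
      (fun x hx => S.ode x (ball_sub hx)) (T.zero hζ k) ?_
    · rw [norm_sub_rev] at hk
      have h2 : (Y - |z.im|) * Λ ≤ 6 * rr Z (Φ z) * (19 ^ m * (Λ / ‖deriv Φ z‖)) := by
        refine h1.trans ?_
        gcongr
      have h3 : ‖deriv Φ z‖ * (Y - |z.im|) ≤ 6 * 19 ^ m * rr Z (Φ z) := by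
        have h4 : (‖deriv Φ z‖ * (Y - |z.im|)) * Λ ≤ (6 * 19 ^ m * rr Z (Φ z)) * Λ := by
          calc (‖deriv Φ z‖ * (Y - |z.im|)) * Λ = ‖deriv Φ z‖ * ((Y - |z.im|) * Λ) := by ring
            _ ≤ ‖deriv Φ z‖ * (6 * rr Z (Φ z) * (19 ^ m * (Λ / ‖deriv Φ z‖))) := by gcongr
            _ = (6 * 19 ^ m * rr Z (Φ z)) * Λ := by field_simp
        exact le_of_mul_le_mul_right h4 hΛ
      refine h3.trans ?_
      gcongr
      have : 0 ≤ 6 * (Λ / κ * Y) := by positivity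
      linarith
    · intro s hs
      have h2 : ‖(s : ℂ) * (ζ + 2 * Real.pi * k - Φ z)‖ ≤ 6 * rr Z (Φ z) := by
        rw [norm_mul, norm_real, Real.norm_eq_abs, abs_of_nonneg hs.1, norm_sub_rev]
        nlinarith [hs.2, norm_nonneg (Φ z - (ζ + 2 * Real.pi * k))]
      have h3 := T.near_bd hr h h2
      rw [S.R_norm hz] at h3
      refine h3.trans ?_
      rw [mul_pow]
      gcongr
      rw [← pow_mul]
      exact pow_le_pow_right₀ (by norm_num) (by omega)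
  · have h1 := T.lower (t := 1 / 6) (by norm_num) h.le
    rw [S.R_norm hz] at h1
    have h2 : κ ^ 3 ≤ (Λ / ‖deriv Φ z‖) ^ 3 := by
      refine le_trans ?_ h1
      calc κ ^ 3 ≤ κ ^ 1 := pow_le_pow_of_le_one hκ0.le (min_le_left _ _) (by norm_num)
        _ = κ := pow_one κ
        _ ≤ _ := min_le_right _ _
    have h3 := (pow_le_pow_iff_left₀ hκ0.le (by positivity) (by norm_num)).1 h2
    have h4 : ‖deriv Φ z‖ ≤ Λ / κ := by
      rw [le_div_iff₀ ha] at h3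
      rw [le_div_iff₀ hκ0]
      linarith
    have h5 : Y - |z.im| ≤ Y := by linarith [abs_nonneg z.im]
    calc ‖deriv Φ z‖ * (Y - |z.im|) ≤ Λ / κ * Y := by gcongr
      _ ≤ 6 * (Λ / κ * Y) * rr Z (Φ z) := by
          have : 0 ≤ Λ / κ * Y := by positivity
          nlinarith
      _ ≤ _ := by
          gcongr
          have : (0 : ℝ) ≤ 6 * 19 ^ m := by positivity
          linarith

/-- the three distortion estimates -/
theorem geo (S : Sol R Λ Y Φ) (T : TP R c Z) : ∃ C : ℝ, 0 < C ∧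
    (∀ z ∈ Str Y, ‖deriv Φ z‖ * (Y - |z.im|) ≤ C) ∧
    (∀ z ∈ Str Y, ∀ ξ : ℂ, ‖ξ - Φ z‖ * C ≤ ‖deriv Φ z‖ * (Y - |z.im|) → ‖R ξ‖ ≤ 2 * ‖R (Φ z)‖) ∧
    (∀ z ∈ Str Y, ∀ ζ : ℂ, ‖ζ - z‖ * C ≤ Y - |z.im| →
      ‖Φ ζ - Φ z‖ ≤ 2 * ‖deriv Φ z‖ * ‖ζ - z‖) := by
  obtain ⟨C₁, hC₁, hkey⟩ := S.key T
  obtain ⟨c0, hc0, hc01, hQ⟩ := T.ratio
  have hΛ := S.hΛ
  have hY := S.hY
  set C : ℝ := C₁ + 4 * C₁ / c0 + 2 with hC
  have hC0 : 0 < C := by positivity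
  have hCC : 4 * C₁ / c0 ≤ C := by rw [hC]; linarith
  refine ⟨C, hC0, fun z hz => ?_, fun z hz ξ hξ => ?_, fun z hz ζ hζ => ?_⟩
  · refine (hkey z hz).trans ?_
    have h1 := rr_le_one Z (Φ z)
    have h2 : 0 ≤ 4 * C₁ / c0 := by positivity
    nlinarith
  · have h1 := hξ.trans (hkey z hz)
    have h2 : ‖ξ - Φ z‖ ≤ c0 * rr Z (Φ z) := by
      have h3 : ‖ξ - Φ z‖ * (4 * C₁ / c0) ≤ C₁ * rr Z (Φ z) :=
        (mul_le_mul_of_nonneg_left hCC (norm_nonneg _)).trans h1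
      have h4 : ‖ξ - Φ z‖ * (4 * C₁ / c0) = (4 * ‖ξ - Φ z‖ / c0) * C₁ := by ring
      rw [h4, mul_comm C₁] at h3
      have h5 := le_of_mul_le_mul_right h3 hC₁
      rw [div_le_iff₀ hc0] at h5
      nlinarith [norm_nonneg (ξ - Φ z)]
    have h3 := hQ (Φ z) (ξ - Φ z) h2
    rw [add_sub_cancel] at h3
    have h4 := norm_le_norm_add_norm_sub' (R ξ) (R (Φ z))
    linarith [norm_nonneg (R (Φ z))]
  · rcases eq_or_ne ζ z with h0 | hne
    · rw [h0]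
      simp
    have hζn : 0 < ‖ζ - z‖ := norm_pos_iff.2 (sub_ne_zero.2 hne)
    have hd : 0 < Y - |z.im| := sub_pos.2 hz
    have ha : 0 < ‖deriv Φ z‖ := norm_pos_iff.2 (S.d_ne hz)
    have hlt : ‖ζ - z‖ < Y - |z.im| := by
      have : (2 : ℝ) ≤ C := by
        rw [hC]
        have : 0 ≤ 4 * C₁ / c0 := by positivity
        linarith
      nlinarith
    have hmem : ∀ t ∈ Icc (0 : ℝ) 1, z + (t : ℂ) * (ζ - z) ∈ Str Y := by
      intro t ht
      apply ball_sub (z := z)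
      rw [mem_ball, dist_eq_norm, add_sub_cancel_left, norm_mul, norm_real, Real.norm_eq_abs,
        abs_of_nonneg ht.1]
      nlinarith [ht.2]
    have hsm : 2 * ‖deriv Φ z‖ * ‖ζ - z‖ ≤ c0 * rr Z (Φ z) := by
      have h1 := hkey z hz
      have h2 : ‖ζ - z‖ * (4 * C₁ / c0) ≤ Y - |z.im| :=
        (mul_le_mul_of_nonneg_left hCC (norm_nonneg _)).trans hζ
      have h3 : ‖deriv Φ z‖ * (‖ζ - z‖ * (4 * C₁ / c0)) ≤ C₁ * rr Z (Φ z) :=
        (mul_le_mul_of_nonneg_left h2 ha.le).trans h1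
      have h4 : ‖deriv Φ z‖ * (‖ζ - z‖ * (4 * C₁ / c0)) = (4 * (‖deriv Φ z‖ * ‖ζ - z‖) / c0) * C₁ := by
        ring
      rw [h4, mul_comm C₁] at h3
      have h5 := le_of_mul_le_mul_right h3 hC₁
      rw [div_le_iff₀ hc0] at h5
      nlinarith [mul_pos ha hζn, S.rr_pos T hz]
    have hγ : ∀ t : ℝ, HasDerivAt (fun t : ℝ => z + (t : ℂ) * (ζ - z)) (ζ - z) t := by
      intro t
      have e1 : HasDerivAt (fun t : ℝ => (t : ℂ)) 1 t := Complex.ofRealCLM.hasDerivAt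
      have := (e1.mul_const (ζ - z)).const_add z
      simpa using this
    have hf : ∀ t ∈ Icc (0 : ℝ) 1, HasDerivAt (fun t : ℝ => Φ (z + (t : ℂ) * (ζ - z)) - Φ z)
        (deriv Φ (z + (t : ℂ) * (ζ - z)) * (ζ - z)) t := by
      intro t ht
      have h1 : HasDerivAt Φ (deriv Φ (z + (t : ℂ) * (ζ - z))) (z + (t : ℂ) * (ζ - z)) :=
        (S.dΦ.differentiableAt ((isOpen_Str Y).mem_nhds (hmem t ht))).hasDerivAt
      have h2 := (h1.scomp t (hγ t)).sub_const (Φ z)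
      refine h2.congr_deriv ?_
      rw [smul_eq_mul, mul_comm]
    have hB : ∀ t : ℝ, HasDerivAt (fun t : ℝ => 2 * ‖deriv Φ z‖ * ‖ζ - z‖ * t)
        (2 * ‖deriv Φ z‖ * ‖ζ - z‖) t := by
      intro t
      simpa using (hasDerivAt_id t).const_mul (2 * ‖deriv Φ z‖ * ‖ζ - z‖)
    have hmain := image_norm_le_of_norm_deriv_right_lt_deriv_boundary (a := (0 : ℝ)) (b := 1)
      (f := fun t : ℝ => Φ (z + (t : ℂ) * (ζ - z)) - Φ z)
      (f' := fun t : ℝ => deriv Φ (z + (t : ℂ) * (ζ - z)) * (ζ - z))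
      (B := fun t : ℝ => 2 * ‖deriv Φ z‖ * ‖ζ - z‖ * t) (B' := fun _ => 2 * ‖deriv Φ z‖ * ‖ζ - z‖)
      (fun t ht => (hf t ht).continuousAt.continuousWithinAt)
      (fun t ht => (hf t ⟨ht.1, ht.2.le⟩).hasDerivWithinAt) (by simp) hB ?_
    · have := hmain (right_mem_Icc.2 zero_le_one)
      simpa using this
    · intro t ht heq
      have ht' : t ∈ Icc (0 : ℝ) 1 := ⟨ht.1, ht.2.le⟩
      set x := z + (t : ℂ) * (ζ - z) with hx
      have hxS := hmem t ht'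
      have h1 : ‖Φ x - Φ z‖ ≤ c0 * rr Z (Φ z) := by
        rw [heq]
        refine le_trans ?_ hsm
        nlinarith [mul_pos ha hζn, ht.2, ht.1]
      have h2 := hQ (Φ z) (Φ x - Φ z) h1
      rw [add_sub_cancel] at h2
      have h3 : ‖R (Φ z)‖ / 2 ≤ ‖R (Φ x)‖ := by
        have h4 := norm_le_norm_add_norm_sub' (R (Φ z)) (R (Φ x))
        rw [norm_sub_rev] at h4
        linarith
      rw [S.R_norm hz, S.R_norm hxS] at h3
      have hb : 0 < ‖deriv Φ x‖ := norm_pos_iff.2 (S.d_ne hxS)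
      have h5 : ‖deriv Φ x‖ < 2 * ‖deriv Φ z‖ := by
        by_contra hcon
        push Not at hcon
        have h6 : Λ / ‖deriv Φ x‖ ≤ Λ / (2 * ‖deriv Φ z‖) := by gcongr
        have h7 : (Λ / ‖deriv Φ x‖) ^ 3 ≤ (Λ / (2 * ‖deriv Φ z‖)) ^ 3 := by gcongr
        have h8 : (Λ / (2 * ‖deriv Φ z‖)) ^ 3 = (Λ / ‖deriv Φ z‖) ^ 3 / 8 := by
          field_simp
          norm_num
        have h9 : 0 < (Λ / ‖deriv Φ z‖) ^ 3 := by positivity
        linarith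
      rw [norm_mul]
      gcongr

end Sol

end Vale.Agent.P097.H877
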