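import Vale.Agent.P097.H877.T1c

/-! # P097 / TRIG-T1 (d): local extension of solutions, the maximal strip -/

set_option linter.all false

open Complex Metric Filter Topology Set
open Vale.Agent.P097.H202

namespace Vale.Agent.P097.H877

theorem TP.diff {R : ℂ → ℂ} {c : ℂ} {Z : Multiset ℂ} (T : TP R c Z) : Differentiable ℂ R := by
  have h : ∀ W : Multiset ℂ, Differentiable ℂ fun z =>
      (W.map fun ζ => Complex.sin ((z - ζ) / 2)).prod := by
    intro W
    induction W using Multiset.induction_on with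
    | empty => simp
    | cons a W ih =>
      simp only [Multiset.map_cons, Multiset.prod_cons]
      exact (by fun_prop : Differentiable ℂ fun z : ℂ => Complex.sin ((z - a) / 2)).mul ih
  have e : R = fun z => c * (Z.map fun ζ => Complex.sin ((z - ζ) / 2)).prod := by
    funext z
    exact T.fac z
  rw [e]
  exact (h Z).const_mul c

theorem cube_one {u : ℂ} (h : u ^ 3 = 1) (h1 : ‖u - 1‖ < 1 / 2) : u = 1 := by
  by_contra hne
  have h2 : (u - 1) * ((u - 1) ^ 2 + 3 * (u - 1) + 3) = 0 := by linear_combination h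
  have h3 : (u - 1) ^ 2 + 3 * (u - 1) + 3 = 0 :=
    (mul_eq_zero.1 h2).resolve_left (sub_ne_zero.2 hne)
  have h4 : (3 : ℂ) = -((u - 1) ^ 2 + 3 * (u - 1)) := by linear_combination h3
  have h5 : (3 : ℝ) ≤ ‖u - 1‖ ^ 2 + 3 * ‖u - 1‖ := by
    have h6 := congrArg norm h4
    rw [norm_neg, show ‖(3 : ℂ)‖ = 3 by simp] at h6
    have h7 := norm_add_le ((u - 1) ^ 2) (3 * (u - 1))
    rw [norm_pow, norm_mul, show ‖(3 : ℂ)‖ = 3 by simp] at h7
    linarith
  nlinarith [norm_nonneg (u - 1)]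

/-- extension of a solution to a disc of controlled radius -/
theorem loc_ext {R Φ : ℂ → ℂ} {Λ s : ℝ} {x₁ : ℂ} (hΛ : 0 < Λ) (hs : 0 < s)
    (hR : Differentiable ℂ R) (hΦ : AnalyticAt ℂ Φ x₁)
    (hode : ∀ᶠ x in 𝓝 x₁, deriv Φ x ^ 3 * R (Φ x) = (Λ : ℂ) ^ 3)
    (hQ : ∀ ξ ∈ ball (Φ x₁) s, ‖R ξ - R (Φ x₁)‖ ≤ ‖R (Φ x₁)‖ / 2) :
    ∃ Ψ : ℂ → ℂ, DifferentiableOn ℂ Ψ (ball x₁ (s / (2 * ‖deriv Φ x₁‖))) ∧ Ψ =ᶠ[𝓝 x₁] Φ := by
  set ψ := Φ x₁ with hψ
  set a := deriv Φ x₁ with ha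
  have hΛ3 : (Λ : ℂ) ^ 3 ≠ 0 := pow_ne_zero _ (by exact_mod_cast hΛ.ne')
  have hode1 : a ^ 3 * R ψ = (Λ : ℂ) ^ 3 := hode.self_of_nhds
  have ha0 : a ≠ 0 := by
    intro h0
    rw [h0] at hode1
    exact hΛ3 (by rw [← hode1]; ring)
  have hR0 : R ψ ≠ 0 := by
    intro h0
    rw [h0, mul_zero] at hode1
    exact hΛ3 hode1.symm
  have han : 0 < ‖a‖ := norm_pos_iff.2 ha0
  -- the cube root
  set q : ℂ → ℂ := fun ξ => R ξ / R ψ with hq
  have hq1 : ∀ ξ ∈ ball ψ s, ‖q ξ - 1‖ ≤ 1 / 2 := by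
    intro ξ hξ
    have h1 := hQ ξ hξ
    have h2 : q ξ - 1 = (R ξ - R ψ) / R ψ := by
      rw [hq]
      field_simp
    rw [h2, norm_div, div_le_iff₀ (norm_pos_iff.2 hR0)]
    linarith
  have hqs : ∀ ξ ∈ ball ψ s, q ξ ∈ slitPlane := by
    intro ξ hξ
    left
    have h1 := abs_re_le_norm (q ξ - 1)
    rw [sub_re, one_re] at h1
    have h2 := abs_le.1 (h1.trans (hq1 ξ hξ))
    linarith [h2.1]
  set g : ℂ → ℂ := fun ξ => Complex.exp (Complex.log (q ξ) / 3) with hg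
  have hg3 : ∀ ξ ∈ ball ψ s, g ξ ^ 3 = q ξ := by
    intro ξ hξ
    rw [hg]
    simp only []
    rw [← Complex.exp_nat_mul]
    push_cast
    rw [mul_div_cancel₀ _ (by norm_num : (3 : ℂ) ≠ 0)]
    exact Complex.exp_log (slitPlane_ne_zero (hqs ξ hξ))
  have hgd : DifferentiableOn ℂ g (ball ψ s) := by
    have h1 : DifferentiableOn ℂ q (ball ψ s) := (hR.div_const _).differentiableOn
    exact ((h1.clog hqs).div_const 3).cexp
  have hg1 : ∀ ξ ∈ ball ψ s, ‖g ξ - 1‖ ≤ 1 / 2 := by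
    intro ξ hξ
    have h1 : ‖Complex.log (q ξ)‖ ≤ 3 / 4 := by
      have h2 := Complex.norm_log_one_add_half_le_self (z := q ξ - 1) (hq1 ξ hξ)
      rw [add_sub_cancel] at h2
      linarith [hq1 ξ hξ]
    have h3 : ‖Complex.log (q ξ) / 3‖ ≤ 1 / 4 := by
      rw [norm_div, show ‖(3 : ℂ)‖ = 3 by simp]
      linarith
    have h4 := Complex.norm_exp_sub_one_le (x := Complex.log (q ξ) / 3) (by linarith)
    linarith
  have hgψ : g ψ = 1 := by
    rw [hg, hq]
    simp [div_self hR0]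
  obtain ⟨F₀, hF₀⟩ := prim_convex isOpen_ball (convex_ball ψ s) hgd
  set F : ℂ → ℂ := fun ξ => F₀ ξ - F₀ ψ with hF
  have hF' : ∀ ξ ∈ ball ψ s, HasDerivAt F (g ξ) ξ := fun ξ hξ => (hF₀ ξ hξ).sub_const _
  have hFψ : F ψ = 0 := sub_self _
  have hlin : ApproximatesLinearOn F ((ContinuousLinearEquiv.refl ℂ ℂ : ℂ ≃L[ℂ] ℂ) : ℂ →L[ℂ] ℂ)
      (ball ψ s) (1 / 2) := by
    intro x hx y hy
    have h1 := (convex_ball ψ s).norm_image_sub_le_of_norm_hasDerivWithin_le
      (f := fun ξ => F ξ - ξ) (f' := fun ξ => g ξ - 1) (C := 1 / 2)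
      (fun ξ hξ => ((hF' ξ hξ).sub (hasDerivAt_id ξ)).hasDerivWithinAt) hg1 hy hx
    simp only [ContinuousLinearEquiv.coe_refl, ContinuousLinearMap.coe_id', id]
    have e : F x - F y - (x - y) = F x - x - (F y - y) := by ring
    rw [e]
    simpa using h1
  have hNN : ‖((ContinuousLinearEquiv.refl ℂ ℂ).symm : ℂ →L[ℂ] ℂ)‖₊ = 1 := by
    have : ((ContinuousLinearEquiv.refl ℂ ℂ).symm : ℂ →L[ℂ] ℂ) = ContinuousLinearMap.id ℂ ℂ := rfl
    rw [this]
    exact ContinuousLinearMap.nnnorm_id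
  have hcN : Subsingleton ℂ ∨ (1 / 2 : NNReal) <
      ‖((ContinuousLinearEquiv.refl ℂ ℂ).symm : ℂ →L[ℂ] ℂ)‖₊⁻¹ := by
    right
    rw [hNN, inv_one]
    have : (1 / 2 : NNReal) < 1 := by
      rw [← NNReal.coe_lt_coe]
      norm_num
    exact this
  set H := hlin.toOpenPartialHomeomorph F (ball ψ s) hcN isOpen_ball with hH
  have hHF : ∀ ξ, H ξ = F ξ := fun ξ => rfl
  have hsrc : H.source = ball ψ s := rfl
  have htgt : ball (0 : ℂ) (s / 2) ⊆ H.target := by
    intro w hw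
    rw [mem_ball, dist_zero_right] at hw
    have h1 : 2 * ‖w‖ < s := by linarith
    have h2 := hlin.closedBall_subset_target hcN isOpen_ball (b := ψ) (ε := 2 * ‖w‖) (by positivity)
      (closedBall_subset_ball h1)
    apply h2
    rw [hFψ, mem_closedBall, dist_zero_right, hNN]
    norm_num
    linarith
  refine ⟨fun x => H.symm (a * (x - x₁)), ?_, ?_⟩
  · intro x hx
    rw [mem_ball, dist_eq_norm, lt_div_iff₀ (by positivity)] at hx
    have hw : a * (x - x₁) ∈ ball (0 : ℂ) (s / 2) := by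
      rw [mem_ball, dist_zero_right, norm_mul]
      linarith
    have hwt := htgt hw
    have hsy : H.symm (a * (x - x₁)) ∈ ball ψ s := H.map_target hwt
    have hgne : g (H.symm (a * (x - x₁))) ≠ 0 := by
      intro h0
      have := hg1 _ hsy
      rw [h0] at this
      norm_num at this
    have h1 := H.hasDerivAt_symm hwt hgne (hF' _ hsy)
    have h2 : HasDerivAt (fun x => a * (x - x₁)) a x := by
      simpa using ((hasDerivAt_id x).sub_const x₁).const_mul a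
    exact (h1.comp x h2).differentiableAt.differentiableWithinAt
  · -- uniqueness near the centre
    have hcont : ContinuousAt Φ x₁ := hΦ.continuousAt
    have hcd : ContinuousAt (deriv Φ) x₁ := hΦ.deriv.continuousAt
    have hmem : ∀ᶠ x in 𝓝 x₁, Φ x ∈ ball ψ s :=
      hcont.eventually (isOpen_ball.mem_nhds (mem_ball_self hs))
    set u : ℂ → ℂ := fun x => g (Φ x) * deriv Φ x / a with hu
    have hgc : ContinuousAt g (Φ x₁) :=
      (hgd.differentiableAt (isOpen_ball.mem_nhds (mem_ball_self hs))).continuousAt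
    have hu1 : u x₁ = 1 := by
      rw [hu]
      simp only []
      rw [← hψ, hgψ, ← ha, one_mul, div_self ha0]
    have huc : ContinuousAt u x₁ := by
      refine ((ContinuousAt.comp (f := Φ) (g := g) hgc hcont).mul hcd).div_const a
    have hclose : ∀ᶠ x in 𝓝 x₁, ‖u x - 1‖ < 1 / 2 := by
      have h1 : ContinuousAt (fun x => ‖u x - 1‖) x₁ := (huc.sub continuousAt_const).norm
      have h2 : ‖u x₁ - 1‖ < 1 / 2 := by rw [hu1]; norm_num
      exact h1.eventually_lt_const h2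
    have hall : ∀ᶠ x in 𝓝 x₁, Φ x ∈ ball ψ s ∧ g (Φ x) * deriv Φ x = a ∧
        HasDerivAt Φ (deriv Φ x) x := by
      filter_upwards [hmem, hclose, hode, hΦ.eventually_analyticAt] with x h1 h2 h3 h4
      refine ⟨h1, ?_, h4.differentiableAt.hasDerivAt⟩
      have h5 : u x ^ 3 = 1 := by
        rw [hu]
        simp only []
        rw [div_pow, mul_pow, hg3 _ h1, hq]
        simp only []
        rw [div_eq_one_iff_eq (pow_ne_zero _ ha0), div_mul_eq_mul_div, div_eq_iff hR0,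
          mul_comm (R (Φ x)), h3, hode1]
      have h6 := cube_one h5 h2
      rw [hu] at h6
      simp only [] at h6
      rw [div_eq_one_iff_eq ha0] at h6
      exact h6
    obtain ⟨ε, hε, hball⟩ := Metric.eventually_nhds_iff_ball.1 hall
    have hder : ∀ x ∈ ball x₁ ε, HasDerivAt (fun x => F (Φ x) - a * (x - x₁)) 0 x := by
      intro x hx
      obtain ⟨h1, h2, h3⟩ := hball x hx
      have h4 := (hF' _ h1).comp x h3
      have h5 : HasDerivAt (fun x => a * (x - x₁)) a x := by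
        simpa using ((hasDerivAt_id x).sub_const x₁).const_mul a
      have h6 := h4.sub h5
      rw [h2, sub_self] at h6
      exact h6
    have hconst : ∀ x ∈ ball x₁ ε, F (Φ x) = a * (x - x₁) := by
      intro x hx
      have h2 := (convex_ball x₁ ε).norm_image_sub_le_of_norm_hasDerivWithin_le
        (f := fun x => F (Φ x) - a * (x - x₁)) (f' := fun _ => 0) (C := 0)
        (fun w hw => (hder w hw).hasDerivWithinAt) (fun w _ => by simp) (mem_ball_self hε) hx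
      rw [zero_mul, norm_le_zero_iff] at h2
      simp only [sub_self, mul_zero, sub_zero] at h2
      rw [← hψ, hFψ, sub_zero, sub_eq_zero] at h2
      exact h2
    filter_upwards [isOpen_ball.mem_nhds (mem_ball_self hε)] with x hx
    rw [← hconst x hx]
    exact H.left_inv (hball x hx).1

/-- gluing of compatible functions -/
theorem glue {ι : Type*} (U : ι → Set ℂ) (F : ι → ℂ → ℂ) (hU : ∀ i, IsOpen (U i))
    (hF : ∀ i, DifferentiableOn ℂ (F i) (U i))
    (hc : ∀ i j, ∀ z ∈ U i, z ∈ U j → F i z = F j z) :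
    ∃ G : ℂ → ℂ, DifferentiableOn ℂ G (⋃ i, U i) ∧ ∀ i, EqOn G (F i) (U i) := by
  classical
  set G : ℂ → ℂ := fun z => if h : ∃ i, z ∈ U i then F h.choose z else 0 with hG
  have hG1 : ∀ i, EqOn G (F i) (U i) := by
    intro i z hz
    have h : ∃ i, z ∈ U i := ⟨i, hz⟩
    have h1 : G z = F h.choose z := dif_pos h
    rw [h1]
    exact hc _ _ z h.choose_spec hz
  refine ⟨G, ?_, hG1⟩
  intro z hz
  obtain ⟨i, hi⟩ := mem_iUnion.1 hz
  have h1 : G =ᶠ[𝓝 z] F i := by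
    filter_upwards [(hU i).mem_nhds hi] with w hw
    exact hG1 i hw
  exact (((hF i).differentiableAt ((hU i).mem_nhds hi)).congr_of_eventuallyEq
    h1).differentiableWithinAt

/-- identity theorem on convex open sets -/
theorem ident {U : Set ℂ} (hU : IsOpen U) (hc : Convex ℝ U) {f g : ℂ → ℂ}
    (hf : DifferentiableOn ℂ f U) (hg : DifferentiableOn ℂ g U) {z : ℂ} (hz : z ∈ U)
    (h : f =ᶠ[𝓝 z] g) : EqOn f g U :=
  (hf.analyticOnNhd hU).eqOn_of_preconnected_of_eventuallyEq (hg.analyticOnNhd hU)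
    hc.isPreconnected hz h

namespace Sol

variable {R Φ : ℂ → ℂ} {c : ℂ} {Z : Multiset ℂ} {Λ Y : ℝ}

/-- if `Φ` stays away from the zeros then the strip can be enlarged -/
theorem extend (S : Sol R Λ Y Φ) (T : TP R c Z) {r : ℝ} (hr : 0 < r)
    (h : ∀ z ∈ Str Y, r ≤ rr Z (Φ z)) :
    ∃ (ε : ℝ) (Ψ : ℂ → ℂ), 0 < ε ∧ DifferentiableOn ℂ Ψ (Str (Y + ε)) ∧ EqOn Ψ Φ (Str Y) := by
  have hΛ := S.hΛ
  have hY := S.hY
  obtain ⟨c0, hc0, hc01, hQ⟩ := T.ratio
  set m := Multiset.card Z with hm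
  have hc : 0 < ‖c‖ := norm_pos_iff.2 T.hc
  set κ : ℝ := min 1 (‖c‖ * r ^ m) with hκ
  have hκ0 : 0 < κ := lt_min one_pos (by positivity)
  have hbd : ∀ z ∈ Str Y, ‖deriv Φ z‖ ≤ Λ / κ := by
    intro z hz
    have ha : 0 < ‖deriv Φ z‖ := norm_pos_iff.2 (S.d_ne hz)
    have h1 := T.lower hr.le (h z hz)
    rw [S.R_norm hz] at h1
    have h2 : κ ^ 3 ≤ (Λ / ‖deriv Φ z‖) ^ 3 := by
      refine le_trans ?_ h1
      calc κ ^ 3 ≤ κ ^ 1 := pow_le_pow_of_le_one hκ0.le (min_le_left _ _) (by norm_num)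
        _ = κ := pow_one κ
        _ ≤ _ := min_le_right _ _
    have h3 := (pow_le_pow_iff_left₀ hκ0.le (by positivity) (by norm_num)).1 h2
    rw [le_div_iff₀ ha] at h3
    rw [le_div_iff₀ hκ0]
    linarith
  set δ : ℝ := c0 * r / (2 * (Λ / κ)) with hδ
  have hδ0 : 0 < δ := by positivity
  have hloc : ∀ x : Str Y, ∃ Ψ : ℂ → ℂ, DifferentiableOn ℂ Ψ (ball (x : ℂ) δ) ∧ Ψ =ᶠ[𝓝 (x : ℂ)] Φ := by
    rintro ⟨x, hx⟩
    have ha : 0 < ‖deriv Φ x‖ := norm_pos_iff.2 (S.d_ne hx)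
    obtain ⟨Ψ, h1, h2⟩ := loc_ext (R := R) (Φ := Φ) (s := c0 * r) (x₁ := x) hΛ (by positivity)
      T.diff (S.dΦ.analyticAt ((isOpen_Str Y).mem_nhds hx))
      (by
        filter_upwards [(isOpen_Str Y).mem_nhds hx] with w hw
        exact S.ode w hw)
      (by
        intro ξ hξ
        rw [mem_ball, dist_eq_norm] at hξ
        have h1 := hQ (Φ x) (ξ - Φ x) (hξ.le.trans (by
          have := h x hx
          gcongr))
        rwa [add_sub_cancel] at h1)
    refine ⟨Ψ, h1.mono (ball_subset_ball ?_), h2⟩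
    rw [hδ]
    have := hbd x hx
    gcongr
  choose Ψ hΨd hΨe using hloc
  have hagree : ∀ x : Str Y, ∀ z ∈ ball (x : ℂ) δ, z ∈ Str Y → Ψ x z = Φ z := by
    intro x z hz1 hz2
    refine ident (U := ball (x : ℂ) δ ∩ Str Y) (isOpen_ball.inter (isOpen_Str Y))
      ((convex_ball _ _).inter (convex_Str Y)) ((hΨd x).mono inter_subset_left)
      (S.dΦ.mono inter_subset_right) (z := (x : ℂ)) ⟨mem_ball_self hδ0, x.2⟩ (hΨe x) ⟨hz1, hz2⟩
  obtain ⟨G, hG1, hG2⟩ := glue (fun x : Str Y => ball (x : ℂ) δ) Ψ (fun _ => isOpen_ball) hΨd (by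
    intro x y z hzx hzy
    have hmid : ((x : ℂ) + y) / 2 ∈ Str Y := by
      have h1 := (convex_Str Y) x.2 y.2 (show (0 : ℝ) ≤ 1 / 2 by norm_num)
        (show (0 : ℝ) ≤ 1 / 2 by norm_num) (by norm_num)
      have e : (1 / 2 : ℝ) • (x : ℂ) + (1 / 2 : ℝ) • (y : ℂ) = ((x : ℂ) + y) / 2 := by
        rw [Complex.real_smul, Complex.real_smul]
        push_cast
        ring
      rwa [e] at h1
    have hxy : dist (x : ℂ) y < 2 * δ := by
      have h1 := dist_triangle (x : ℂ) z y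
      rw [mem_ball, dist_comm] at hzx
      rw [mem_ball] at hzy
      linarith
    rw [dist_eq_norm] at hxy
    have hmx : ((x : ℂ) + y) / 2 ∈ ball (x : ℂ) δ := by
      rw [mem_ball, dist_eq_norm, show ((x : ℂ) + y) / 2 - x = -((x - y) / 2) by ring, norm_neg,
        norm_div, show ‖(2 : ℂ)‖ = 2 by simp]
      linarith
    have hmy : ((x : ℂ) + y) / 2 ∈ ball (y : ℂ) δ := by
      rw [mem_ball, dist_eq_norm, show ((x : ℂ) + y) / 2 - y = (x - y) / 2 by ring,
        norm_div, show ‖(2 : ℂ)‖ = 2 by simp]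
      linarith
    refine ident (U := ball (x : ℂ) δ ∩ ball (y : ℂ) δ) (isOpen_ball.inter isOpen_ball)
      ((convex_ball _ _).inter (convex_ball _ _)) ((hΨd x).mono inter_subset_left)
      ((hΨd y).mono inter_subset_right) ⟨hmx, hmy⟩ ?_ ⟨hzx, hzy⟩
    filter_upwards [isOpen_ball.mem_nhds hmx, isOpen_ball.mem_nhds hmy,
      (isOpen_Str Y).mem_nhds hmid] with w h1 h2 h3
    rw [hagree x w h1 h3, hagree y w h2 h3])
  refine ⟨δ, G, hδ0, hG1.mono ?_, ?_⟩
  · intro z hz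
    rw [mem_Str] at hz
    set t : ℝ := Y / (Y + δ) with ht
    have ht0 : 0 < t := by positivity
    have ht1 : t * (Y + δ) = Y := by
      rw [ht]
      field_simp
    set x : ℂ := (z.re : ℂ) + ((t * z.im : ℝ) : ℂ) * I with hx
    have hxi : x.im = t * z.im := by simp [hx]
    have hxS : x ∈ Str Y := by
      rw [mem_Str, hxi, abs_mul, abs_of_pos ht0]
      nlinarith
    refine mem_iUnion.2 ⟨⟨x, hxS⟩, ?_⟩
    rw [mem_ball, dist_eq_norm]
    have e : z - x = (((1 - t) * z.im : ℝ) : ℂ) * I := by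
      apply Complex.ext
      · simp [hx]
      · simp [hx]
        ring
    show ‖z - x‖ < δ
    have ht2 : t < 1 := by
      rw [ht, div_lt_one (by positivity)]
      linarith
    rw [e, norm_mul, norm_I, mul_one, norm_real, Real.norm_eq_abs, abs_mul,
      abs_of_pos (by linarith : 0 < 1 - t)]
    have h3 : (1 - t) * (Y + δ) = δ := by linarith
    nlinarith [abs_nonneg z.im]
  · intro z hz
    rw [hG2 ⟨z, hz⟩ (mem_ball_self hδ0)]
    exact hagree ⟨z, hz⟩ z (mem_ball_self hδ0) hz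

/-- the maximal strip -/
theorem exists_max {ρ : ℝ} (S : Sol R Λ ρ Φ) (T : TP R c Z) :
    ∃ (Y : ℝ) (Ψ : ℂ → ℂ), ρ ≤ Y ∧ Sol R Λ Y Ψ ∧ EqOn Ψ Φ (Str ρ) ∧
      ∀ r : ℝ, 0 < r → ∃ z ∈ Str Y, rr Z (Ψ z) < r := by
  have hΛ := S.hΛ
  have hρ := S.hY
  set A : Set ℝ := {y | ρ ≤ y ∧ ∃ Ψ : ℂ → ℂ, DifferentiableOn ℂ Ψ (Str y) ∧ EqOn Ψ Φ (Str ρ)} with hA
  have h0S : ∀ y : ℝ, 0 < y → (0 : ℂ) ∈ Str y := by
    intro y hy
    simpa [mem_Str] using hy
  have hsol : ∀ y Ψ, ρ ≤ y → DifferentiableOn ℂ Ψ (Str y) → EqOn Ψ Φ (Str ρ) → Sol R Λ y Ψ := by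
    intro y Ψ hy hd he
    have hy0 : 0 < y := by linarith
    refine ⟨hΛ, hy0, hd, ?_⟩
    have h1 : EqOn (fun z => deriv Ψ z ^ 3 * R (Ψ z)) (fun _ => (Λ : ℂ) ^ 3) (Str y) := by
      refine ident (isOpen_Str y) (convex_Str y) ?_ (differentiableOn_const _) (h0S y hy0) ?_
      · refine ((hd.deriv (isOpen_Str y)).pow 3).mul ?_
        exact T.diff.comp_differentiableOn hd
      · filter_upwards [(isOpen_Str ρ).mem_nhds (h0S ρ hρ)] with z hz
        have h2 : Ψ =ᶠ[𝓝 z] Φ := by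
          filter_upwards [(isOpen_Str ρ).mem_nhds hz] with w hw
          exact he hw
        rw [h2.deriv_eq, he hz]
        exact S.ode z hz
    exact fun z hz => h1 hz
  -- boundedness
  have hbdd : BddAbove A := by
    obtain ⟨ζ, hζ⟩ := Multiset.exists_mem_of_ne_zero T.hZ
    have h0 : R ζ = 0 := by simpa using T.zero hζ 0
    have hcont : ContinuousOn (fun s : ℝ => R (Φ 0 + (s : ℂ) * (ζ - Φ 0))) (Icc 0 1) := by
      have h1 : Continuous fun s : ℝ => Φ 0 + (s : ℂ) * (ζ - Φ 0) := by fun_prop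
      exact (T.diff.continuous.comp h1).continuousOn
    obtain ⟨B, hB⟩ := isCompact_Icc.exists_bound_of_continuousOn hcont
    refine ⟨‖ζ - Φ 0‖ * max 1 B / Λ, ?_⟩
    rintro y ⟨hy, Ψ, hd, he⟩
    have Sy := hsol y Ψ hy hd he
    have e0 : Ψ 0 = Φ 0 := he (h0S ρ hρ)
    have hb : ball (0 : ℂ) y ⊆ Str y := by
      have := ball_sub (Y := y) (z := 0)
      simpa using this
    have h1 := lift_bound (R := R) (Ψ := Ψ) (z := 0) (ψ₀ := ζ) (d := y) (M := max 1 B) hΛ Sy.hY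
      (by positivity) (hd.mono hb) (fun x hx => Sy.ode x (hb hx)) h0 (by
        intro s hs
        rw [e0]
        refine (hB s hs).trans ?_
        have h2 : (1 : ℝ) ≤ max 1 B := le_max_left _ _
        calc B ≤ max 1 B := le_max_right _ _
          _ = max 1 B ^ 1 := (pow_one _).symm
          _ ≤ max 1 B ^ 3 := pow_le_pow_right₀ h2 (by norm_num))
    rw [e0] at h1
    rw [le_div_iff₀ hΛ]
    exact h1
  have hρA : ρ ∈ A := ⟨le_refl _, Φ, S.dΦ, fun _ _ => rfl⟩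
  set Y := sSup A with hY
  have hρY : ρ ≤ Y := le_csSup hbdd hρA
  choose! F hF using fun y (hy : y ∈ A) => hy.2
  obtain ⟨G, hG1, hG2⟩ := glue (fun y : A => Str (y : ℝ)) (fun y => F y) (fun _ => isOpen_Str _)
    (fun y => (hF y y.2).1) (by
      intro x y z hzx hzy
      refine ident (U := Str (x : ℝ) ∩ Str (y : ℝ)) ((isOpen_Str _).inter (isOpen_Str _))
        ((convex_Str _).inter (convex_Str _)) ((hF x x.2).1.mono inter_subset_left)
        ((hF y y.2).1.mono inter_subset_right) (z := 0)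
        ⟨h0S _ (by linarith [x.2.1]), h0S _ (by linarith [y.2.1])⟩ ?_ ⟨hzx, hzy⟩
      filter_upwards [(isOpen_Str ρ).mem_nhds (h0S ρ hρ)] with w hw
      rw [(hF x x.2).2 hw, (hF y y.2).2 hw])
  have hGd : DifferentiableOn ℂ G (Str Y) := by
    refine hG1.mono fun z hz => ?_
    obtain ⟨y, hy1, hy2⟩ := exists_lt_of_lt_csSup ⟨ρ, hρA⟩ (mem_Str.1 hz)
    exact mem_iUnion.2 ⟨⟨y, hy1⟩, hy2⟩
  have hGe : EqOn G Φ (Str ρ) := by
    intro z hz
    rw [hG2 ⟨ρ, hρA⟩ hz]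
    exact (hF ρ hρA).2 hz
  have SY := hsol Y G hρY hGd hGe
  refine ⟨Y, G, hρY, SY, hGe, fun r hr => ?_⟩
  by_contra hcon
  push Not at hcon
  obtain ⟨ε, Ψ, hε, h1, h2⟩ := SY.extend T hr hcon
  have h3 : Y + ε ∈ A := ⟨by linarith, Ψ, h1, fun z hz => by
    rw [h2 (Str_mono hρY hz), hGe hz]⟩
  have h4 := le_csSup hbdd h3
  linarith

end Sol

end Vale.Agent.P097.H877
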