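import Vale.Agent.P097.H877.T1d
import Vale.Agent.P097.H202.Laz3

/-! # P097 / TRIG-T1 (e): the limit point on the top line -/

set_option linter.all false

open Complex Metric Filter Topology Set
open scoped ComplexConjugate
open Vale.Agent.P097.H202

namespace Vale.Agent.P097.H877

/-- factorisation of an entire function at a zero -/
theorem entire_fac {R : ℂ → ℂ} (hR : Differentiable ℂ R) {ζ w : ℂ} (h0 : R ζ = 0) (hw : R w ≠ 0) :
    ∃ (j : ℕ) (R₁ : ℂ → ℂ), 1 ≤ j ∧ Differentiable ℂ R₁ ∧ R₁ ζ ≠ 0 ∧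
      ∀ ξ, R ξ = (ξ - ζ) ^ j * R₁ ξ := by
  classical
  have han : AnalyticAt ℂ R ζ := hR.analyticAt ζ
  have hne : ¬ ∀ᶠ z in 𝓝 ζ, R z = 0 := by
    intro h
    have h1 : EqOn R 0 univ :=
      (hR.differentiableOn.analyticOnNhd isOpen_univ).eqOn_zero_of_preconnected_of_eventuallyEq_zero
        isPreconnected_univ (mem_univ ζ) h
    exact hw (h1 (mem_univ w))
  obtain ⟨j, g, hg, hg0, hfac⟩ := han.exists_eventuallyEq_pow_smul_nonzero_iff.2 hne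
  have hj : 1 ≤ j := by
    by_contra hcon
    have hj0 : j = 0 := by omega
    have h1 := hfac.self_of_nhds
    rw [hj0, pow_zero, one_smul, h0] at h1
    exact hg0 h1.symm
  set R₁ : ℂ → ℂ := fun ξ => if ξ = ζ then g ζ else R ξ / (ξ - ζ) ^ j with hR₁
  have hR₁ζ : R₁ ζ = g ζ := if_pos rfl
  have hev : R₁ =ᶠ[𝓝 ζ] g := by
    filter_upwards [hfac] with ξ hξ
    by_cases h : ξ = ζ
    · rw [h, hR₁ζ]
    · have h1 : R₁ ξ = R ξ / (ξ - ζ) ^ j := if_neg h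
      rw [h1, hξ, smul_eq_mul, mul_div_cancel_left₀ _ (pow_ne_zero _ (sub_ne_zero.2 h))]
  refine ⟨j, R₁, hj, ?_, ?_, ?_⟩
  · intro ξ
    by_cases h : ξ = ζ
    · rw [h]
      exact (hg.differentiableAt.congr_of_eventuallyEq hev)
    · have h1 : R₁ =ᶠ[𝓝 ξ] fun ξ => R ξ / (ξ - ζ) ^ j := by
        filter_upwards [isOpen_ne.mem_nhds h] with η hη
        exact if_neg hη
      refine DifferentiableAt.congr_of_eventuallyEq ?_ h1
      exact (hR ξ).div (by fun_prop) (pow_ne_zero _ (sub_ne_zero.2 h))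
  · rw [hR₁ζ]
    exact hg0
  · intro ξ
    by_cases h : ξ = ζ
    · rw [h, h0, sub_self, zero_pow (by omega), zero_mul]
    · have h1 : R₁ ξ = R ξ / (ξ - ζ) ^ j := if_neg h
      rw [h1, mul_div_cancel₀ _ (pow_ne_zero _ (sub_ne_zero.2 h))]

theorem conj_mem {Y : ℝ} {z : ℂ} (hz : z ∈ Str Y) : conj z ∈ Str Y := by
  rw [mem_Str, conj_im, abs_neg]
  exact hz

theorem int_shift {Φ : ℂ → ℂ} {Y : ℝ} (per : ∀ z ∈ Str Y, Φ (z + 1) = Φ z + 2 * Real.pi)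
    (m : ℤ) : ∀ z ∈ Str Y, Φ (z + m) = Φ z + 2 * Real.pi * m := by
  have hadd : ∀ (z : ℂ), z ∈ Str Y → ∀ (x : ℤ), z + x ∈ Str Y := by
    intro z hz x
    have := add_real_mem_Str hz (x : ℝ)
    simpa using this
  induction m using Int.induction_on with
  | zero => intro z _; simp
  | succ n ih =>
    intro z hz
    have h1 := ih z hz
    have h2 := per (z + ((n : ℤ) : ℂ)) (hadd z hz n)
    rw [show z + (((n : ℤ) + 1 : ℤ) : ℂ) = z + ((n : ℤ) : ℂ) + 1 by push_cast; ring, h2, h1]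
    push_cast
    ring
  | pred n ih =>
    intro z hz
    have h1 := ih z hz
    have h2 := per (z + ((-(n : ℤ) - 1 : ℤ) : ℂ)) (hadd z hz _)
    rw [show z + ((-(n : ℤ) - 1 : ℤ) : ℂ) + 1 = z + ((-(n : ℤ) : ℤ) : ℂ) by push_cast; ring, h1] at h2
    have h3 : Φ (z + ((-(n : ℤ) - 1 : ℤ) : ℂ)) = Φ z + 2 * Real.pi * ((-(n : ℤ) : ℤ) : ℂ) -
        2 * Real.pi := by rw [h2]; ring
    rw [h3]
    push_cast
    ring

theorem exists_le_all (Z : Multiset ℂ) (e : ℂ → ℝ) (he : ∀ ζ ∈ Z, 0 < e ζ) :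
    ∃ ε : ℝ, 0 < ε ∧ ∀ ζ ∈ Z, ε ≤ e ζ := by
  induction Z using Multiset.induction_on with
  | empty => exact ⟨1, one_pos, by simp⟩
  | cons a Z ih =>
    obtain ⟨ε, h1, h2⟩ := ih fun ζ hζ => he ζ (Multiset.mem_cons_of_mem hζ)
    refine ⟨min ε (e a), lt_min h1 (he a (Multiset.mem_cons_self _ _)), fun ζ hζ => ?_⟩
    rcases Multiset.mem_cons.1 hζ with h | h
    · rw [h]; exact min_le_right _ _
    · exact (min_le_left _ _).trans (h2 ζ h)

namespace Sol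

variable {R Φ : ℂ → ℂ} {c : ℂ} {Z : Multiset ℂ} {Λ Y : ℝ}

/-- the limit point -/
theorem limit_point (S : Sol R Λ Y Φ) (T : TP R c Z)
    (per : ∀ z ∈ Str Y, Φ (z + 1) = Φ z + 2 * Real.pi)
    (cj : ∀ z ∈ Str Y, Φ (conj z) = conj (Φ z))
    (Rp : ∀ (z : ℂ) (k : ℤ), R (z + 2 * Real.pi * k) = R z) (Rc : ∀ z, R (conj z) = conj (R z))
    (hmax : ∀ r : ℝ, 0 < r → ∃ z ∈ Str Y, rr Z (Φ z) < r) :
    ∃ ζ p : ℂ, R ζ = 0 ∧ p.im = Y ∧ ∀ ε : ℝ, 0 < ε → ∃ x ∈ Str Y, ‖x - p‖ < ε ∧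
      ∃ k : ℤ, ‖Φ x - (ζ + 2 * Real.pi * k)‖ < ε := by
  have hY := S.hY
  -- points of the fundamental domain
  have hpt : ∀ n : ℕ, ∃ z : ℂ, z ∈ Icc (0 : ℝ) 1 ×ℂ Icc (-Y) Y ∧ z ∈ Str Y ∧ ∃ ζ ∈ Z, ∃ k : ℤ,
      ‖Φ z - (ζ + 2 * Real.pi * k)‖ < 1 / ((n : ℝ) + 1) := by
    intro n
    have hn : (0 : ℝ) < (n : ℝ) + 1 := by positivity
    have hr0 : (0 : ℝ) < 1 / (6 * ((n : ℝ) + 1)) := by positivity
    have hr1 : 1 / (6 * ((n : ℝ) + 1)) < 1 := by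
      rw [div_lt_one (by positivity)]
      have : (0 : ℝ) ≤ n := Nat.cast_nonneg n
      linarith
    obtain ⟨z, hz, hzr⟩ := hmax (1 / (6 * ((n : ℝ) + 1))) hr0
    obtain ⟨ζ, hζ, k, hk⟩ := T.near (z := Φ z) (by linarith)
    set m : ℤ := ⌊z.re⌋ with hm
    have hz' : z + ((-m : ℤ) : ℂ) ∈ Str Y := by
      have := add_real_mem_Str hz ((-m : ℤ) : ℝ)
      rwa [ofReal_intCast] at this
    refine ⟨z + ((-m : ℤ) : ℂ), ⟨?_, ?_⟩, hz', ζ, hζ, k - m, ?_⟩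
    · rw [mem_preimage, add_re, intCast_re]
      push_cast
      constructor
      · have := Int.floor_le z.re
        linarith
      · have := (Int.lt_floor_add_one z.re).le
        linarith
    · rw [mem_preimage]
      exact abs_le.1 (le_of_lt hz')
    · rw [int_shift per (-m) z hz]
      rw [show Φ z + 2 * Real.pi * ((-m : ℤ) : ℂ) - (ζ + 2 * Real.pi * ((k - m : ℤ) : ℂ))
        = Φ z - (ζ + 2 * Real.pi * k) by push_cast; ring]
      refine lt_of_le_of_lt hk ?_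
      calc 6 * rr Z (Φ z) < 6 * (1 / (6 * ((n : ℝ) + 1))) := by linarith
        _ = 1 / ((n : ℝ) + 1) := by field_simp
  choose z hzK hzS hzζ using hpt
  have hK : IsCompact (Icc (0 : ℝ) 1 ×ℂ Icc (-Y) Y) := isCompact_Icc.reProdIm isCompact_Icc
  obtain ⟨p, hpK, φ, hφ, hlim⟩ := hK.tendsto_subseq hzK
  have hlim' : Tendsto (fun n : ℕ => 1 / ((n : ℝ) + 1)) atTop (𝓝 0) :=
    tendsto_one_div_add_atTop_nhds_zero_nat
  have hlim2 : Tendsto (fun n : ℕ => 1 / ((φ n : ℝ) + 1)) atTop (𝓝 0) :=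
    hlim'.comp hφ.tendsto_atTop
  have hany : ∀ ε : ℝ, 0 < ε → ∃ x ∈ Str Y, ‖x - p‖ < ε ∧ ∃ ζ ∈ Z, ∃ k : ℤ,
      ‖Φ x - (ζ + 2 * Real.pi * k)‖ < ε := by
    intro ε hε
    have h1 : ∀ᶠ n in atTop, dist ((z ∘ φ) n) p < ε := by
      have := (tendsto_iff_dist_tendsto_zero.1 hlim).eventually_lt_const hε
      exact this
    have h2 : ∀ᶠ n in atTop, 1 / ((φ n : ℝ) + 1) < ε := hlim2.eventually_lt_const hε
    obtain ⟨n, h3, h4⟩ := (h1.and h2).exists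
    obtain ⟨ζ, hζ, k, hk⟩ := hzζ (φ n)
    refine ⟨z (φ n), hzS _, ?_, ζ, hζ, k, hk.trans h4⟩
    rw [← dist_eq_norm]
    exact h3
  -- one zero
  obtain ⟨ζ, hζ, hζall⟩ : ∃ ζ ∈ Z, ∀ ε : ℝ, 0 < ε → ∃ x ∈ Str Y, ‖x - p‖ < ε ∧
      ∃ k : ℤ, ‖Φ x - (ζ + 2 * Real.pi * k)‖ < ε := by
    by_contra hcon
    push Not at hcon
    choose! e he1 he2 using hcon
    obtain ⟨ε, hε, hle⟩ := exists_le_all Z e he1
    obtain ⟨x, hx1, hx2, ζ, hζ, k, hk⟩ := hany ε hε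
    have h1 := he2 ζ hζ x hx1 (hx2.trans_le (hle ζ hζ)) k
    have h2 := hle ζ hζ
    linarith
  have hRζ : R ζ = 0 := by simpa using T.zero hζ 0
  have hpn : p ∉ Str Y := by
    intro hp
    have hR0 := S.R_ne hp
    have hc1 : ContinuousAt (fun x => R (Φ x)) p :=
      (T.diff.continuous.continuousAt).comp
        (S.dΦ.differentiableAt ((isOpen_Str Y).mem_nhds hp)).continuousAt
    have hpos : 0 < ‖R (Φ p)‖ / 2 := by
      have := norm_pos_iff.2 hR0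
      linarith
    obtain ⟨δ₁, hδ₁, h1⟩ := Metric.continuousAt_iff.1 hc1 _ hpos
    obtain ⟨δ₂, hδ₂, h2⟩ := Metric.continuousAt_iff.1 (T.diff.continuous.continuousAt (x := ζ)) _ hpos
    obtain ⟨x, hx1, hx2, k, hk⟩ := hζall (min δ₁ δ₂) (lt_min hδ₁ hδ₂)
    have h3 := h1 (show dist x p < δ₁ by
      rw [dist_eq_norm]
      exact lt_of_lt_of_le hx2 (min_le_left _ _))
    have h4 := h2 (show dist (Φ x - 2 * Real.pi * k) ζ < δ₂ by
      rw [dist_eq_norm, show Φ x - 2 * Real.pi * k - ζ = Φ x - (ζ + 2 * Real.pi * k) by ring]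
      exact lt_of_lt_of_le hk (min_le_right _ _))
    have h5 : R (Φ x - 2 * Real.pi * k) = R (Φ x) := by
      have := Rp (Φ x - 2 * Real.pi * k) k
      rw [sub_add_cancel] at this
      exact this.symm
    rw [h5, hRζ, dist_zero_right] at h4
    rw [dist_eq_norm] at h3
    have h6 := norm_le_norm_add_norm_sub' (R (Φ p)) (R (Φ x))
    rw [norm_sub_rev] at h6
    linarith
  have hpY : |p.im| = Y := by
    refine le_antisymm ?_ (not_lt.1 hpn)
    have := hpK.2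
    rw [mem_preimage] at this
    exact abs_le.2 this
  rcases abs_choice p.im with h | h
  · exact ⟨ζ, p, hRζ, by rw [← h, hpY], hζall⟩
  · refine ⟨conj ζ, conj p, by rw [Rc, hRζ, map_zero], ?_, fun ε hε => ?_⟩
    · rw [conj_im, ← h, hpY]
    · obtain ⟨x, h1, h2, k, hk⟩ := hζall ε hε
      refine ⟨conj x, conj_mem h1, ?_, k, ?_⟩
      · rw [← map_sub, RCLike.norm_conj]
        exact h2
      · rw [cj x h1]
        have : conj (Φ x) - (conj ζ + 2 * Real.pi * k) = conj (Φ x - (ζ + 2 * Real.pi * k)) := by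
          rw [map_sub, map_add, map_mul, map_mul, conj_ofReal, map_intCast, map_ofNat]
        rw [this, RCLike.norm_conj]
        exact hk

end Sol

end Vale.Agent.P097.H877
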