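import Vale.Agent.P097.H877.T1e
import Vale.Agent.P097.H202.T1Lc

/-! # P097 / TRIG-T1 (f): the cusp end -/

set_option linter.all false

open Complex Metric Filter Topology Set
open scoped ComplexConjugate
open Vale.Agent.P097.H202 Vale.Agent.P097.H536

namespace Vale.Agent.P097.H877

theorem Sol.cusp {R Φ : ℂ → ℂ} {Λ Y : ℝ} (S : Sol R Λ Y Φ) (hR : Differentiable ℂ R)
    (Rp : ∀ (z : ℂ) (k : ℤ), R (z + 2 * Real.pi * k) = R z) {ζ p : ℂ} (hζ : R ζ = 0)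
    (hp : p.im = Y) (hall : ∀ ε : ℝ, 0 < ε → ∃ x ∈ Str Y, ‖x - p‖ < ε ∧
      ∃ k : ℤ, ‖Φ x - (ζ + 2 * Real.pi * k)‖ < ε) :
    ∃ (n : ℕ) (ψ₀ : ℂ), CuspEnd R Φ Y n p ψ₀ := by
  have hY := S.hY
  have hΛ := S.hΛ
  have h0S : (0 : ℂ) ∈ Str Y := by simpa [mem_Str] using hY
  obtain ⟨j, R₁, hj, dR₁, hR₁, hfac⟩ := entire_fac hR hζ (S.R_ne h0S)
  obtain ⟨r₀, m, M, E, hr₀1, L⟩ := exists_LocA (Λ := Λ) (R := R) hΛ hj (r := 1) one_pos
    dR₁.differentiableOn hR₁ (fun ξ _ => hfac ξ)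
  have hr₀ := L.hr
  have hm := L.hm
  have hM := L.hM
  set D : ℝ := m * (r₀ / 2) ^ (j + 3) with hD
  have hD0 : 0 < D := by positivity
  set r₂ : ℝ := min 1 D with hr₂
  have hr₂0 : 0 < r₂ := lt_min one_pos hD0
  have hr₂1 : r₂ ≤ 1 := min_le_left _ _
  have hcube : ∀ t : ℝ, 0 ≤ t → t < r₂ → t ^ 3 < D := by
    intro t ht1 ht2
    calc t ^ 3 ≤ t ^ 1 := pow_le_pow_of_le_one ht1 (by linarith) (by norm_num)
      _ = t := pow_one t
      _ < r₂ := ht2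
      _ ≤ D := min_le_right _ _
  set N : ℝ := min (D / 2) ((r₂ / 4) ^ 3) with hN
  have hN0 : 0 < N := lt_min (by positivity) (by positivity)
  have hpow : ∀ t : ℝ, 0 ≤ t → t ≤ 1 → t ^ (j + 3) ≤ t := by
    intro t h1 h2
    calc t ^ (j + 3) ≤ t ^ 1 := pow_le_pow_of_le_one h1 h2 (by omega)
      _ = t := pow_one t
  set ε : ℝ := min (min (r₂ / 4) r₀) (N / M) with hε
  have hε0 : 0 < ε := lt_min (lt_min (by positivity) hr₀) (div_pos hN0 hM)
  have hε1 : ε ≤ r₂ / 4 := (min_le_left _ _).trans (min_le_left _ _)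
  have hε2 : ε ≤ r₀ := (min_le_left _ _).trans (min_le_right _ _)
  have hε3 : M * ε ≤ N := by
    have : ε ≤ N / M := min_le_right _ _
    rw [le_div_iff₀ hM] at this
    linarith
  obtain ⟨x₀, hx₀, hx₀p, k, hk⟩ := hall ε hε0
  set Ψ : ℂ → ℂ := fun x => Φ x - 2 * Real.pi * k with hΨ
  have dΨ : DifferentiableOn ℂ Ψ (Str Y) := S.dΦ.sub_const _
  have hRΨ : ∀ x, R (Ψ x) = R (Φ x) := by
    intro x
    have := Rp (Ψ x) k
    rw [hΨ] at this ⊢
    simp only [sub_add_cancel] at this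
    exact this.symm
  have odeΨ : ∀ z ∈ Str Y, deriv Ψ z ^ 3 * R (Ψ z) = (Λ : ℂ) ^ 3 := by
    intro z hz
    rw [hRΨ, hΨ, deriv_sub_const]
    exact S.ode z hz
  have hsub : ∀ x, Ψ x - ζ = Φ x - (ζ + 2 * Real.pi * k) := by
    intro x
    rw [hΨ]
    ring
  have hx₀ζ : ‖Ψ x₀ - ζ‖ < ε := by rw [hsub]; exact hk
  have hx₀1 : ‖Ψ x₀ - ζ‖ ≤ 1 := by linarith
  have hMx₀ : M * ‖Ψ x₀ - ζ‖ ^ (j + 3) ≤ N := by
    calc M * ‖Ψ x₀ - ζ‖ ^ (j + 3) ≤ M * ‖Ψ x₀ - ζ‖ := by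
          gcongr
          exact hpow _ (norm_nonneg _) hx₀1
      _ ≤ M * ε := by gcongr
      _ ≤ N := hε3
  have hmem₀ : Ψ x₀ ∈ ball ζ r₀ := by
    rw [mem_ball, dist_eq_norm]
    linarith
  obtain ⟨β, hβ, hβ1, hβ2⟩ := L.segment hΛ (isOpen_Str Y) (convex_Str Y) dΨ odeΨ hx₀ hmem₀ (by
    refine lt_of_le_of_lt hMx₀ ?_
    have : N ≤ D / 2 := min_le_left _ _
    rw [← hD]
    linarith)
  rw [← hD] at hβ2
  have hx₀β : ‖x₀ - β‖ ≤ r₂ / 4 := by
    have h1 : ‖x₀ - β‖ ^ 3 ≤ (r₂ / 4) ^ 3 := by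
      rw [hβ1]
      exact ((L.A_hi hmem₀).trans hMx₀).trans (min_le_right _ _)
    exact (pow_le_pow_iff_left₀ (norm_nonneg _) (by positivity) (by norm_num)).1 h1
  have hpβ : ‖p - β‖ < r₂ / 2 := by
    have h1 := norm_sub_le_norm_sub_add_norm_sub p x₀ β
    rw [norm_sub_rev p x₀] at h1
    linarith
  have hpi := Real.pi_gt_three
  have heq : p = β := by
    by_contra hne
    have ht : 0 < ‖p - β‖ := norm_pos_iff.2 (sub_ne_zero.2 hne)
    set t := ‖p - β‖ with htd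
    set ε' : ℝ := min (min (t / 2) (r₂ / 2)) ((t / 2) ^ 3 / (2 * M)) with hε'
    have hε'0 : 0 < ε' := lt_min (lt_min (by positivity) (by positivity)) (by positivity)
    have hε'1 : ε' ≤ t / 2 := (min_le_left _ _).trans (min_le_left _ _)
    have hε'2 : ε' ≤ r₂ / 2 := (min_le_left _ _).trans (min_le_right _ _)
    have hε'3 : M * ε' < (t / 2) ^ 3 := by
      have h1 : ε' ≤ (t / 2) ^ 3 / (2 * M) := min_le_right _ _
      rw [le_div_iff₀ (by positivity)] at h1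
      have : 0 < (t / 2) ^ 3 := by positivity
      nlinarith
    obtain ⟨x, hx, hxp, k', hk'⟩ := hall ε' hε'0
    have hxβ : ‖x - β‖ < r₂ := by
      have h1 := norm_sub_le_norm_sub_add_norm_sub x p β
      linarith
    obtain ⟨h2, h3⟩ := hβ2 x hx (hcube _ (norm_nonneg _) hxβ)
    rw [mem_ball, dist_eq_norm] at h2
    have hkk : k' = k := by
      by_contra hcon
      have h4 : (1 : ℝ) ≤ |((k' - k : ℤ) : ℝ)| := by
        have : (1 : ℤ) ≤ |k' - k| := Int.one_le_abs (sub_ne_zero.2 hcon)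
        have h5 : ((1 : ℤ) : ℝ) ≤ ((|k' - k| : ℤ) : ℝ) := by exact_mod_cast this
        rw [Int.cast_abs] at h5
        simpa using h5
      have h5 : ‖(2 * Real.pi * ((k' - k : ℤ) : ℂ) : ℂ)‖ ≤ ‖Ψ x - ζ‖ +
          ‖Φ x - (ζ + 2 * Real.pi * k')‖ := by
        have e : (2 * Real.pi * ((k' - k : ℤ) : ℂ) : ℂ)
            = (Ψ x - ζ) - (Φ x - (ζ + 2 * Real.pi * k')) := by
          rw [hΨ]
          push_cast
          ring
        rw [e]
        exact norm_sub_le _ _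
      have h6 : ‖(2 * Real.pi * ((k' - k : ℤ) : ℂ) : ℂ)‖ = 2 * Real.pi * |((k' - k : ℤ) : ℝ)| := by
        rw [norm_mul, norm_mul, norm_real, Real.norm_eq_abs, abs_of_pos Real.pi_pos,
          show ‖(2 : ℂ)‖ = 2 by simp, Complex.norm_intCast]
      rw [h6] at h5
      nlinarith
    rw [hkk, ← hsub] at hk'
    have h4 : ‖x - β‖ ^ 3 ≤ M * ε' := by
      have h5 := congrArg norm h3
      rw [norm_pow] at h5
      rw [← h5]
      refine (L.A_hi (by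
        rw [mem_ball, dist_eq_norm]
        linarith)).trans ?_
      gcongr
      exact (hpow _ (norm_nonneg _) (by linarith)).trans hk'.le
    have h5 : (t / 2) ^ 3 ≤ ‖x - β‖ ^ 3 := by
      have h6 : t / 2 ≤ ‖x - β‖ := by
        have h7 := norm_sub_le_norm_sub_add_norm_sub p x β
        rw [norm_sub_rev p x] at h7
        linarith
      gcongr
    linarith
  rw [← heq] at hβ2
  have hA : ∀ x ∈ Str Y, ‖x - p‖ < r₂ → Ψ x ∈ ball ζ r₀ ∧ H202.AA ζ j E (Ψ x) = (x - p) ^ 3 := by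
    intro x hx hxp
    obtain ⟨h2, h3⟩ := hβ2 x hx (hcube _ (norm_nonneg _) hxp)
    exact ⟨ball_subset_ball (by linarith) h2, h3⟩
  obtain ⟨C₀, hC₀, hlim⟩ := L.cusp_lim hr₂0 hp dΨ hY hA
  refine ⟨j + 1, ζ + 2 * Real.pi * k, ⟨by omega, hp, ⟨fun ξ => R₁ (ξ - 2 * Real.pi * k), ?_, ?_, ?_⟩,
    C₀, hC₀, ?_⟩⟩
  · exact dR₁.comp (by fun_prop)
  · simp only [add_sub_cancel_right]
    exact hR₁
  · intro ξ
    have h1 := Rp (ξ - 2 * Real.pi * k) k
    rw [sub_add_cancel] at h1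
    rw [h1, hfac, Nat.add_sub_cancel]
    congr 2
    ring
  · refine hlim.congr fun x => ?_
    rw [hsub]

end Vale.Agent.P097.H877
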